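import Vale.Agent.P125.Ultra

namespace Vale.Agent.P125

open Finset

/-- Masses of good paths. -/
noncomputable def pathMass {S E : Type} [Fintype E] [DecidableEq S] (tl : E → S) (w : E → ℝ)
    (K : E → E → ℝ) : ℕ → S → E → ℝ
  | 0 => fun x e => if tl e = x then w e else 0
  | s + 1 => fun x e' => ∑ e, pathMass tl w K s x e * K e e'

theorem chain_fin {V : Type*} [AddCommGroup V] (ν : V → ℝ) (hν : ∀ v, 0 ≤ ν v) {p C : ℝ}
    (hp : 0 ≤ p) (hC : 0 ≤ C) (hMT : MT ν p C) {S E : Type} [Fintype S] [Fintype E]
    (rev : E ≃ E) (hrev : ∀ e, rev (rev e) = e) (tl : E → S) (w : E → ℝ) (w0 : ∀ e, 0 ≤ w e)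
    (wr : ∀ e, w (rev e) = w e) (w1 : ∑ e, w e = 1) {d : ℕ} (hd : 0 < d) (out : E → Fin d)
    (f : S → V) (β B δ : ℝ) (t : ℕ) (hB : 0 ≤ B)
    (ha : ∀ e, ν (f (tl (rev e)) - f (tl e)) ≤ β)
    (Inv : ℕ → V → E → Prop)
    (hb1 : ∀ e, Inv 1 (f (tl (rev e)) - f (tl e)) e)
    (hb2 : ∀ s v e e', 1 ≤ s → Inv s v e → tl e' = tl (rev e) → out e' ≠ out (rev e) →
      Inv (s + 1) (v + (f (tl (rev e')) - f (tl e'))) e')
    (hb3 : ∀ v e, Inv (t + 1) v e → B ≤ ν v)
    (hc : ∀ h : S → ℝ, (∀ x, |h x| ≤ 1) → ∀ j j',
      ∑ e, (if out e = j then w e * h (tl e) else 0) ≤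
        ∑ e, (if out e = j' then w e * h (tl e) else 0) + δ) :
    (1 - t * (1 / d + d * δ)) * B ^ p ≤ C * (t + 1) * β ^ p := by
  classical
  set π : S → ℝ := fun x => ∑ e, if tl e = x then w e else 0 with hπ
  set Q : S → S → ℝ := fun x y => ∑ e, if tl e = x ∧ tl (rev e) = y then w e else 0 with hQ
  set P : Matrix S S ℝ := fun x y => Q x y / π x + if π x = 0 ∧ x = y then 1 else 0 with hP
  have π0 : ∀ x, 0 ≤ π x := fun x => Finset.sum_nonneg fun e _ => by
    split_ifs
    exacts [w0 e, le_rfl]
  have Q0 : ∀ x y, 0 ≤ Q x y := fun x y => Finset.sum_nonneg fun e _ => by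
    split_ifs
    exacts [w0 e, le_rfl]
  have Qs : ∀ x y, Q x y = Q y x := by
    intro x y
    simp only [hQ]
    rw [← rev.sum_comp]
    refine Finset.sum_congr rfl fun e _ => ?_
    simp only [hrev, wr, and_comm]
  have Qsum : ∀ x, ∑ y, Q x y = π x := by
    intro x
    simp only [hQ, hπ]
    rw [Finset.sum_comm]
    refine Finset.sum_congr rfl fun e _ => ?_
    by_cases h : tl e = x <;> simp [h]
  have Qle : ∀ x y, Q x y ≤ π x := fun x y => by
    rw [← Qsum x]
    exact Finset.single_le_sum (f := fun y => Q x y) (fun y _ => Q0 x y) (Finset.mem_univ y)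
  have πP : ∀ x y, π x * P x y = Q x y := by
    intro x y
    by_cases h : π x = 0
    · have := Qle x y
      have := Q0 x y
      rw [h, zero_mul]
      linarith
    · simp only [hP, h, false_and, if_false, add_zero]
      field_simp
  have P0 : ∀ x y, 0 ≤ P x y := fun x y => add_nonneg (div_nonneg (Q0 x y) (π0 x)) (by
    split_ifs <;> norm_num)
  have P1 : ∀ x, ∑ y, P x y = 1 := by
    intro x
    simp only [hP, Finset.sum_add_distrib, ← Finset.sum_div, Qsum]
    by_cases h : π x = 0
    · simp [h]
    · simp [h]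
  have π1 : ∑ x, π x = 1 := by
    simp only [hπ]
    rw [Finset.sum_comm, ← w1]
    refine Finset.sum_congr rfl fun e _ => ?_
    simp
  have wle : ∀ e, w e ≤ π (tl e) := fun e => by
    have := Finset.single_le_sum (f := fun e' => if tl e' = tl e then w e' else 0)
      (fun e' _ => by
        split_ifs
        exacts [w0 e', le_rfl]) (Finset.mem_univ e)
    simpa using this
  have πh : ∀ y, ∑ e, (if tl (rev e) = y then w e else 0) = π y := by
    intro y
    simp only [hπ]
    rw [← rev.sum_comp]
    refine Finset.sum_congr rfl fun e _ => ?_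
    simp only [hrev, wr]
  have Pt0 : ∀ s x y, 0 ≤ (P ^ s) x y := by
    intro s
    induction s with
    | zero =>
      intro x y
      rw [pow_zero, Matrix.one_apply]
      split_ifs <;> norm_num
    | succ s ih =>
      intro x y
      rw [pow_succ, Matrix.mul_apply]
      exact Finset.sum_nonneg fun z _ => mul_nonneg (ih x z) (P0 z y)
  set K : E → E → ℝ := fun e e' =>
    if tl e' = tl (rev e) ∧ out e' ≠ out (rev e) then w e' / π (tl e') else 0 with hK
  have K0 : ∀ e e', 0 ≤ K e e' := fun e e' => by
    simp only [hK]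
    split_ifs
    exacts [div_nonneg (w0 e') (π0 _), le_rfl]
  have Kle : ∀ e e', K e e' ≤ if tl (rev e) = tl e' then w e' / π (tl e') else 0 := by
    intro e e'
    simp only [hK]
    by_cases h : tl (rev e) = tl e'
    · rw [if_pos h]
      split_ifs
      exacts [le_rfl, div_nonneg (w0 e') (π0 _)]
    · rw [if_neg h, if_neg fun h' => h h'.1.symm]
  set M := pathMass tl w K with hM
  have M0' : ∀ x e, M 0 x e = if tl e = x then w e else 0 := fun x e => rfl
  have Ms : ∀ s x e', M (s + 1) x e' = ∑ e, M s x e * K e e' := fun s x e => rfl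
  have M0 : ∀ s x e, 0 ≤ M s x e := by
    intro s
    induction s with
    | zero =>
      intro x e
      rw [M0']
      split_ifs
      exacts [w0 e, le_rfl]
    | succ s ih =>
      intro x e'
      rw [Ms]
      exact Finset.sum_nonneg fun e _ => mul_nonneg (ih x e) (K0 e e')
  have Mw : ∀ s e, ∑ x, M s x e ≤ w e := by
    intro s
    induction s with
    | zero =>
      intro e
      simp [M0']
    | succ s ih =>
      intro e'
      simp only [Ms]
      rw [Finset.sum_comm]
      calc ∑ e, ∑ x, M s x e * K e e'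
          ≤ ∑ e, (if tl (rev e) = tl e' then w e else 0) * (w e' / π (tl e')) := by
            refine Finset.sum_le_sum fun e _ => ?_
            rw [← Finset.sum_mul]
            refine (mul_le_mul (ih e) (Kle e e') (K0 e e') (w0 e)).trans (le_of_eq ?_)
            split_ifs <;> simp
        _ = π (tl e') * (w e' / π (tl e')) := by rw [← Finset.sum_mul, πh]
        _ ≤ w e' := by
            by_cases h : π (tl e') = 0
            · rw [h, zero_mul]
              exact w0 e'
            · exact le_of_eq (by field_simp)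
  -- the incompatibility mass
  set r : Fin d → S → ℝ := fun j x => (∑ e, if tl e = x ∧ out e = j then w e else 0) / π x
    with hr
  have r0 : ∀ j x, 0 ≤ r j x := fun j x => div_nonneg (Finset.sum_nonneg fun e _ => by
    split_ifs
    exacts [w0 e, le_rfl]) (π0 x)
  have rsum : ∀ x, ∑ j, r j x ≤ 1 := by
    intro x
    simp only [hr, ← Finset.sum_div]
    refine div_le_one_of_le₀ (le_of_eq ?_) (π0 x)
    rw [Finset.sum_comm]
    refine Finset.sum_congr rfl fun e _ => ?_
    by_cases h : tl e = x <;> simp [h]
  have r1 : ∀ j x, |r j x| ≤ 1 := fun j x => by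
    rw [abs_of_nonneg (r0 j x)]
    exact (Finset.single_le_sum (f := fun j => r j x) (fun j _ => r0 j x)
      (Finset.mem_univ j)).trans (rsum x)
  have hd' : (0 : ℝ) < d := by exact_mod_cast hd
  have hη : ∑ e, w e * r (out e) (tl e) ≤ 1 / d + d * δ := by
    have h1 : ∑ e, w e * r (out e) (tl e) =
        ∑ j, ∑ e, (if out e = j then w e * r j (tl e) else 0) := by
      rw [Finset.sum_comm]
      refine Finset.sum_congr rfl fun e _ => ?_
      simp
    have h2 : ∀ j, (d : ℝ) * ∑ e, (if out e = j then w e * r j (tl e) else 0) ≤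
        ∑ e, w e * r j (tl e) + d * δ := by
      intro j
      have h3 := Finset.sum_le_sum (s := univ) fun j' _ => hc (r j) (r1 j) j j'
      rw [Finset.sum_add_distrib, Finset.sum_comm (f := fun j' e =>
        if out e = j' then w e * r j (tl e) else 0)] at h3
      simpa using h3
    have h4 := Finset.sum_le_sum (s := univ) fun j _ => h2 j
    rw [← Finset.mul_sum, ← h1, Finset.sum_add_distrib, Finset.sum_comm] at h4
    have h5 : ∑ e, ∑ j, w e * r j (tl e) ≤ 1 := by
      rw [← w1]
      refine Finset.sum_le_sum fun e _ => ?_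
      rw [← Finset.mul_sum]
      exact mul_le_of_le_one_right (w0 e) (rsum _)
    simp only [Finset.sum_const, Finset.card_univ, Fintype.card_fin, nsmul_eq_mul] at h4
    rw [← mul_le_mul_iff_right₀ hd', mul_add, mul_one_div_cancel hd'.ne']
    linarith
  have Ksum : ∀ e, w e ≠ 0 → ∑ e', K e e' = 1 - r (out (rev e)) (tl (rev e)) := by
    intro e he
    have h1 : π (tl (rev e)) ≠ 0 := by
      have := wle (rev e)
      rw [wr] at this
      exact (lt_of_lt_of_le (lt_of_le_of_ne (w0 e) he.symm) this).ne'
    rw [eq_sub_iff_add_eq, ← div_self h1]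
    simp only [hK, hr]
    conv_rhs => rw [hπ]
    simp only [Finset.sum_div, ← Finset.sum_add_distrib]
    refine Finset.sum_congr rfl fun e' _ => ?_
    by_cases h2 : tl e' = tl (rev e)
    · by_cases h3 : out e' = out (rev e)
      · simp [h2, h3, hπ]
      · simp [h2, h3, hπ]
    · simp [h2]
  have Mtot : ∀ s : ℕ, 1 - s * (1 / d + d * δ) ≤ ∑ x, ∑ e, M s x e := by
    intro s
    induction s with
    | zero =>
      simp only [M0', Nat.cast_zero, zero_mul, sub_zero]
      exact π1.ge
    | succ s ih =>
      have h1 : ∑ x, ∑ e', M (s + 1) x e' = ∑ e, (∑ x, M s x e) * ∑ e', K e e' := by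
        simp only [Ms, Finset.sum_mul, Finset.mul_sum]
        rw [Finset.sum_comm]
        conv_lhs => enter [2, e']; rw [Finset.sum_comm]
        rw [Finset.sum_comm]
      have h2 : ∀ e, (∑ x, M s x e) - w e * r (out (rev e)) (tl (rev e)) ≤
          (∑ x, M s x e) * ∑ e', K e e' := by
        intro e
        have h3 : 0 ≤ ∑ x, M s x e := Finset.sum_nonneg fun x _ => M0 s x e
        by_cases he : w e = 0
        · have h4 : ∑ x, M s x e = 0 := le_antisymm (he ▸ Mw s e) h3
          rw [h4, he]
          simp
        · rw [Ksum e he, mul_sub, mul_one]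
          have := mul_le_mul_of_nonneg_right (Mw s e) (r0 (out (rev e)) (tl (rev e)))
          linarith
      have h5 := Finset.sum_le_sum (s := univ) fun e _ => h2 e
      rw [← h1, Finset.sum_sub_distrib, Finset.sum_comm] at h5
      have h6 : ∑ e, w e * r (out (rev e)) (tl (rev e)) = ∑ e, w e * r (out e) (tl e) := by
        rw [← rev.sum_comp]
        simp only [hrev, wr]
      rw [h6] at h5
      push_cast
      linarith
  have MP' : ∀ s x y, ∑ e, (if tl (rev e) = y then M s x e else 0) ≤ π x * (P ^ (s + 1)) x y := by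
    intro s
    induction s with
    | zero =>
      intro x y
      rw [zero_add, pow_one, πP]
      refine le_of_eq (Finset.sum_congr rfl fun e _ => ?_)
      rw [M0']
      by_cases h1 : tl e = x <;> by_cases h2 : tl (rev e) = y <;> simp [h1, h2]
    | succ s ih =>
      intro x y
      rw [pow_succ, Matrix.mul_apply, Finset.mul_sum]
      have h1 : ∀ e, ∑ e', (if tl (rev e') = y then K e e' else 0) ≤ P (tl (rev e)) y := by
        intro e
        calc ∑ e', (if tl (rev e') = y then K e e' else 0)
            ≤ ∑ e', (if tl e' = tl (rev e) ∧ tl (rev e') = y then w e' else 0) /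
              π (tl (rev e)) := by
              refine Finset.sum_le_sum fun e' _ => ?_
              by_cases h2 : tl (rev e') = y
              · rw [if_pos h2]
                refine (Kle e e').trans (le_of_eq ?_)
                by_cases h3 : tl (rev e) = tl e'
                · simp [h2, h3]
                · rw [if_neg h3, if_neg fun h => h3 h.1.symm, zero_div]
              · simp [h2]
          _ = Q (tl (rev e)) y / π (tl (rev e)) := by rw [← Finset.sum_div]
          _ ≤ P (tl (rev e)) y := le_add_of_nonneg_right (by split_ifs <;> norm_num)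
      calc ∑ e', (if tl (rev e') = y then M (s + 1) x e' else 0)
          = ∑ e, M s x e * ∑ e', (if tl (rev e') = y then K e e' else 0) := by
            simp only [Ms, Finset.mul_sum]
            rw [Finset.sum_comm]
            refine Finset.sum_congr rfl fun e' _ => ?_
            split_ifs <;> simp
        _ ≤ ∑ e, M s x e * P (tl (rev e)) y :=
            Finset.sum_le_sum fun e _ => mul_le_mul_of_nonneg_left (h1 e) (M0 s x e)
        _ = ∑ z, (∑ e, if tl (rev e) = z then M s x e else 0) * P z y := by
            simp only [Finset.sum_mul]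
            rw [Finset.sum_comm]
            refine Finset.sum_congr rfl fun e _ => ?_
            simp
        _ ≤ ∑ z, π x * ((P ^ (s + 1)) x z * P z y) := by
            refine Finset.sum_le_sum fun z _ => ?_
            rw [← mul_assoc]
            exact mul_le_mul_of_nonneg_right (ih x z) (P0 z y)
  have MI : ∀ s x e, M s x e ≠ 0 → Inv (s + 1) (f (tl (rev e)) - f x) e := by
    intro s
    induction s with
    | zero =>
      intro x e h
      rw [M0'] at h
      have : tl e = x := by
        by_contra h'
        exact h (if_neg h')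
      rw [← this]
      exact hb1 e
    | succ s ih =>
      intro x e' h
      rw [Ms] at h
      obtain ⟨e, -, he⟩ := Finset.exists_ne_zero_of_sum_ne_zero h
      have h1 := ih x e (left_ne_zero_of_mul he)
      have h2 : tl e' = tl (rev e) ∧ out e' ≠ out (rev e) := by
        by_contra h'
        exact right_ne_zero_of_mul he (if_neg h')
      have := hb2 _ _ e e' (by omega) h1 h2.1 h2.2
      rw [← h2.1] at this
      convert this using 1
      abel
  have main := hMT S P π P0 P1 π0 π1 (fun x y => by rw [πP, πP, Qs]) f (t + 1) (by omega)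
  have hR : ∑ i, ∑ j, π i * P i j * ν (f j - f i) ^ p ≤ β ^ p := by
    simp only [πP, hQ, Finset.sum_mul]
    calc ∑ i, ∑ j, ∑ e, (if tl e = i ∧ tl (rev e) = j then w e else 0) * ν (f j - f i) ^ p
        = ∑ e, w e * ν (f (tl (rev e)) - f (tl e)) ^ p := by
          conv_lhs => enter [2, i]; rw [Finset.sum_comm]
          rw [Finset.sum_comm]
          refine Finset.sum_congr rfl fun e _ => ?_
          rw [Finset.sum_eq_single (tl e), Finset.sum_eq_single (tl (rev e))]
          · simp
          · intro j _ hj
            simp [hj.symm]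
          · simp
          · intro i _ hi
            simp [hi.symm]
          · simp
      _ ≤ ∑ e, w e * β ^ p := Finset.sum_le_sum fun e _ =>
          mul_le_mul_of_nonneg_left (Real.rpow_le_rpow (hν _) (ha e) hp) (w0 e)
      _ = β ^ p := by rw [← Finset.sum_mul, w1, one_mul]
  have hL : (∑ x, ∑ e, M t x e) * B ^ p ≤
      ∑ i, ∑ j, π i * (P ^ (t + 1)) i j * ν (f j - f i) ^ p := by
    rw [Finset.sum_mul]
    refine Finset.sum_le_sum fun x _ => ?_
    calc (∑ e, M t x e) * B ^ p ≤ ∑ e, M t x e * ν (f (tl (rev e)) - f x) ^ p := by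
          rw [Finset.sum_mul]
          refine Finset.sum_le_sum fun e _ => ?_
          by_cases h : M t x e = 0
          · simp [h]
          · exact mul_le_mul_of_nonneg_left (Real.rpow_le_rpow hB (hb3 _ _ (MI t x e h)) hp)
              (M0 t x e)
      _ = ∑ y, (∑ e, if tl (rev e) = y then M t x e else 0) * ν (f y - f x) ^ p := by
          simp only [Finset.sum_mul]
          rw [Finset.sum_comm]
          refine Finset.sum_congr rfl fun e _ => ?_
          simp
      _ ≤ _ := Finset.sum_le_sum fun y _ =>
          mul_le_mul_of_nonneg_right (MP' t x y) (Real.rpow_nonneg (hν _) _)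
  have h1 := mul_le_mul_of_nonneg_right (Mtot t) (Real.rpow_nonneg hB p)
  have h2 := mul_le_mul_of_nonneg_left hR (by positivity : 0 ≤ C * ((t + 1 : ℕ) : ℝ))
  push_cast at main h2
  linarith

theorem chain_gen {V : Type*} [AddCommGroup V] (ν : V → ℝ) (hν : ∀ v, 0 ≤ ν v) {p C : ℝ}
    (hp : 0 ≤ p) (hC : 0 ≤ C) (hMT : MT ν p C) {S E : Type} [Fintype E]
    (rev : E ≃ E) (hrev : ∀ e, rev (rev e) = e) (tl : E → S) (w : E → ℝ) (w0 : ∀ e, 0 ≤ w e)
    (wr : ∀ e, w (rev e) = w e) (w1 : ∑ e, w e = 1) {d : ℕ} (hd : 0 < d) (out : E → Fin d)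
    (f : S → V) (β B δ : ℝ) (t : ℕ) (hB : 0 ≤ B)
    (ha : ∀ e, ν (f (tl (rev e)) - f (tl e)) ≤ β)
    (Inv : ℕ → V → E → Prop)
    (hb1 : ∀ e, Inv 1 (f (tl (rev e)) - f (tl e)) e)
    (hb2 : ∀ s v e e', 1 ≤ s → Inv s v e → tl e' = tl (rev e) → out e' ≠ out (rev e) →
      Inv (s + 1) (v + (f (tl (rev e')) - f (tl e'))) e')
    (hb3 : ∀ v e, Inv (t + 1) v e → B ≤ ν v)
    (hc : ∀ h : S → ℝ, (∀ x, |h x| ≤ 1) → ∀ j j',
      ∑ e, (if out e = j then w e * h (tl e) else 0) ≤
        ∑ e, (if out e = j' then w e * h (tl e) else 0) + δ) :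
    (1 - t * (1 / d + d * δ)) * B ^ p ≤ C * (t + 1) * β ^ p := by
  classical
  haveI : Fintype (Set.range tl) := (Set.finite_range tl).fintype
  refine chain_fin ν hν hp hC hMT (S := Set.range tl) rev hrev (fun e => ⟨tl e, e, rfl⟩) w w0 wr
    w1 hd out (fun x => f x.1) β B δ t hB ha Inv hb1
    (fun s v e e' h1 h2 h3 h4 => hb2 s v e e' h1 h2 (congrArg Subtype.val h3) h4) hb3 ?_
  intro h hh j j'
  have := hc (fun x => if hx : x ∈ Set.range tl then h ⟨x, hx⟩ else 0) (fun x => by
    split_ifs with hx
    exacts [hh _, by simp]) j j'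
  simpa only [Set.mem_range_self, dif_pos] using this

/-- Almost invariant finitely supported probability measures on an abelian group. -/
theorem exists_folner {V : Type*} [AddCommGroup V] (s : Finset V) (ε : ℝ) (hε : 0 < ε) :
    ∃ (N : Type) (_ : Fintype N) (l : N → ℝ) (y : N → V), (∀ n, 0 ≤ l n) ∧ ∑ n, l n = 1 ∧
      ∀ g ∈ s, ∀ h : V → ℝ, (∀ v, |h v| ≤ 1) →
        |∑ n, l n * h (y n + g) - ∑ n, l n * h (y n)| ≤ ε := by
  classical
  induction s using Finset.induction_on with
  | empty => exact ⟨Unit, inferInstance, fun _ => 1, fun _ => 0, by simp, by simp, by simp⟩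
  | insert g₀ s _ ih =>
    obtain ⟨N, _, l, y, l0, l1, hl⟩ := ih
    obtain ⟨M, hM⟩ := exists_nat_gt (2 / ε)
    have hM0 : (0 : ℝ) < M := lt_trans (by positivity) hM
    have hM1 : 2 / (M : ℝ) ≤ ε := by
      rw [div_lt_iff₀ hε] at hM
      rw [div_le_iff₀ hM0]
      linarith
    refine ⟨N × Fin M, inferInstance, fun n => l n.1 / M, fun n => y n.1 + (n.2 : ℕ) • g₀,
      fun n => div_nonneg (l0 _) hM0.le, ?_, ?_⟩
    · rw [Fintype.sum_prod_type]
      simp only [Finset.sum_const, Finset.card_univ, Fintype.card_fin, nsmul_eq_mul]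
      rw [← l1]
      refine Finset.sum_congr rfl fun n _ => ?_
      field_simp
    · intro g hg h hh
      rcases Finset.mem_insert.1 hg with rfl | hg
      · rw [← Finset.sum_sub_distrib, Fintype.sum_prod_type]
        have h1 : ∀ n, ∑ m : Fin M, (l n / M * h (y n + (m : ℕ) • g + g) -
            l n / M * h (y n + (m : ℕ) • g)) = l n / M * (h (y n + M • g) - h (y n + 0 • g)) := by
          intro n
          rw [← Finset.sum_range_sub (fun m => h (y n + m • g)) M, Finset.mul_sum,
            ← Fin.sum_univ_eq_sum_range (fun m => l n / M * (h (y n + (m + 1) • g) -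
              h (y n + m • g)))]
          refine Finset.sum_congr rfl fun m _ => ?_
          rw [succ_nsmul, add_assoc, mul_sub]
        simp only [h1]
        refine (Finset.abs_sum_le_sum_abs _ _).trans (le_trans ?_ hM1)
        calc ∑ n, |l n / M * (h (y n + M • g) - h (y n + 0 • g))| ≤ ∑ n, l n * (2 / M) := by
              refine Finset.sum_le_sum fun n _ => ?_
              rw [abs_mul, abs_of_nonneg (div_nonneg (l0 n) hM0.le)]
              have h2 : |h (y n + M • g) - h (y n + 0 • g)| ≤ 2 :=
                (abs_sub _ _).trans (by linarith [hh (y n + M • g), hh (y n + 0 • g)])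
              refine (mul_le_mul_of_nonneg_left h2 (div_nonneg (l0 n) hM0.le)).trans
                (le_of_eq ?_)
              ring
          _ = 2 / M := by rw [← Finset.sum_mul, l1, one_mul]
      · rw [← Finset.sum_sub_distrib, Fintype.sum_prod_type_right]
        have h1 : ∀ m : Fin M, |∑ n, (l n / M * h (y n + (m : ℕ) • g₀ + g) -
            l n / M * h (y n + (m : ℕ) • g₀))| ≤ ε / M := by
          intro m
          have h2 := hl g hg (fun v => h (v + (m : ℕ) • g₀)) fun v => hh _
          rw [← Finset.sum_sub_distrib] at h2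
          have h3 : ∑ n, (l n / M * h (y n + (m : ℕ) • g₀ + g) -
              l n / M * h (y n + (m : ℕ) • g₀)) =
              (∑ n, (l n * h (y n + g + (m : ℕ) • g₀) - l n * h (y n + (m : ℕ) • g₀))) / M := by
            rw [Finset.sum_div]
            refine Finset.sum_congr rfl fun n _ => ?_
            rw [add_right_comm]
            ring
          rw [h3, abs_div, abs_of_pos hM0]
          exact div_le_div_of_nonneg_right h2 hM0.le
        refine (Finset.abs_sum_le_sum_abs _ _).trans ((Finset.sum_le_sum fun m _ => h1 m).trans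
          (le_of_eq ?_))
        simp only [Finset.sum_const, Finset.card_univ, Fintype.card_fin, nsmul_eq_mul]
        field_simp

end Vale.Agent.P125
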