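import Vale.Agent.P125.Ultra

namespace Vale.Agent.P125

open Filter Topology Finset

/-- Finitely supported random increasing sequences whose prescribed subsequences have almost the
same law. -/
theorem exists_contractable {ι : Type} [Fintype ι] (k : ℕ) (φ : ι → ℕ → ℕ)
    (hφ : ∀ a, StrictMono (φ a)) (ε : ℝ) (hε : 0 < ε) :
    ∃ (W : Type) (_ : Fintype W) (μ : W → ℝ) (Ω : W → ℕ → ℕ), (∀ w, 0 ≤ μ w) ∧ ∑ w, μ w = 1 ∧
      (∀ w, StrictMono (Ω w)) ∧ ∀ (a : ι) (h : (Fin k → ℕ) → ℝ), (∀ c, |h c| ≤ 1) →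
        |∑ w, μ w * h (fun i => Ω w (φ a i)) - ∑ w, μ w * h (fun i => Ω w i)| ≤ ε := by
  classical
  obtain ⟨nb, hnb0, hnb⟩ : ∃ nb : ℕ, k ≤ nb ∧ ∀ a, ∀ i < k, φ a i ≤ nb := by
    refine ⟨k + univ.sup (fun a => φ a k), Nat.le_add_right _ _, fun a i hi => ?_⟩
    have h1 : φ a k ≤ univ.sup (fun a => φ a k) :=
      Finset.le_sup (f := fun a => φ a k) (Finset.mem_univ a)
    have := hφ a hi
    omega
  haveI : Fact ((1 : ENNReal) ≤ 1) := ⟨le_rfl⟩
  let E := lp (fun _ : ι × (Fin k → ℕ) => ℝ) 1
  let κ : (ℕ → ℕ) → E := fun n => ∑ a : ι,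
    (lp.single 1 (a, fun i : Fin k => n (φ a i)) (1 : ℝ) - lp.single 1 (a, fun i : Fin k => n i) 1)
  let Gd : Set (ℕ → ℕ) := {n | ∀ i j, i < j → j < nb + 1 → n i < n j}
  have hnd : ¬ Disjoint (Metric.ball (0 : E) ε) (convexHull ℝ (κ '' Gd)) := by
    intro hd
    obtain ⟨f, u, h1, h2⟩ := geometric_hahn_banach_open (convex_ball _ _) Metric.isOpen_ball
      (convex_convexHull ℝ _) hd
    have hu : 0 < u := by simpa using h1 0 (Metric.mem_ball_self hε)
    have h3 : ∀ a : ι, Tendsto (fun n : ℕ → ℕ =>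
        f (lp.single 1 (a, fun i : Fin k => n (φ a i)) (1 : ℝ)) -
          f (lp.single 1 (a, fun i : Fin k => n i) 1)) VV (𝓝 0) := by
      intro a
      obtain ⟨c, hc⟩ := ultra_exists_lim VV
        (fun n : ℕ → ℕ => f (lp.single 1 (a, fun i : Fin k => n i) (1 : ℝ))) ‖f‖ (fun n => by
          have := f.le_opNorm (lp.single 1 (a, fun i : Fin k => n i) (1 : ℝ))
          rwa [lp.norm_single (by norm_num), norm_one, mul_one, Real.norm_eq_abs] at this)
      have h4 := VV_tendsto (k := k) (hφ a) (fun n n' h => by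
        have : (fun i : Fin k => n i) = fun i : Fin k => n' i := funext fun i => h i i.2
        simp only [this]) hc
      simpa using h4.sub hc
    have h4 : Tendsto (fun n => f (κ n)) VV (𝓝 0) := by
      have := tendsto_finset_sum univ fun a _ => h3 a
      simpa only [κ, map_sum, map_sub, Finset.sum_const_zero] using this
    have h5 : {n | f (κ n) < u} ∈ VV := h4 (Iio_mem_nhds hu)
    obtain ⟨n, h6, h7⟩ := Ultrafilter.nonempty_of_mem (Filter.inter_mem h5 (VV_mono (nb + 1)))
    exact absurd (h2 _ (subset_convexHull ℝ _ ⟨n, h7, rfl⟩)) (not_le.2 h6)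
  obtain ⟨b, hb1, hb2⟩ := Set.not_disjoint_iff.1 hnd
  obtain ⟨W, _, μ, z, μ0, μ1, hz, hb⟩ := mem_convexHull_iff_exists_fintype.1 hb2
  choose n hn hnz using hz
  refine ⟨W, inferInstance, μ, fun w i => n w (min i nb) + (i - nb), μ0, μ1, ?_, ?_⟩
  · intro w
    refine strictMono_nat_of_lt_succ fun i => ?_
    show n w (min i nb) + (i - nb) < n w (min (i + 1) nb) + (i + 1 - nb)
    rcases lt_or_ge i nb with h | h
    · rw [min_eq_left h.le, min_eq_left (by omega : i + 1 ≤ nb)]
      have := hn w i (i + 1) (by omega) (by omega)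
      omega
    · rw [min_eq_right h, min_eq_right (by omega : nb ≤ i + 1)]
      omega
  · intro a h hh
    have e1 : ∀ w, (fun i : Fin k => n w (min (φ a i) nb) + (φ a i - nb)) =
        fun i : Fin k => n w (φ a i) := fun w => funext fun i => by
      have := hnb a i i.2
      rw [min_eq_left this, Nat.sub_eq_zero_of_le this, add_zero]
    have e2 : ∀ w, (fun i : Fin k => n w (min (i : ℕ) nb) + (i - nb)) =
        fun i : Fin k => n w i := fun w => funext fun i => by
      have : (i : ℕ) ≤ nb := i.2.le.trans hnb0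
      rw [min_eq_left this, Nat.sub_eq_zero_of_le this, add_zero]
    simp only [e1, e2]
    set T : Finset (Fin k → ℕ) := univ.image (fun w => fun i : Fin k => n w (φ a i)) ∪
      univ.image (fun w => fun i : Fin k => n w i) with hT
    have hκ : ∀ (m : ℕ → ℕ) (c : Fin k → ℕ), κ m (a, c) =
        (if c = (fun i : Fin k => m (φ a i)) then 1 else 0) -
          if c = (fun i : Fin k => m i) then 1 else 0 := by
      intro m c
      have hs : ∀ i j : ι × (Fin k → ℕ), (lp.single 1 i (1 : ℝ) : E) j =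
          if j = i then 1 else 0 := by
        intro i j
        by_cases hij : j = i
        · subst hij
          rw [lp.single_apply_self, if_pos rfl]
        · rw [lp.single_apply_ne _ _ _ hij, if_neg hij]
      show ((∑ a' : ι, ((lp.single 1 (a', fun i : Fin k => m (φ a' i)) (1 : ℝ) : E) -
        lp.single 1 (a', fun i : Fin k => m i) 1) : E) : ι × (Fin k → ℕ) → ℝ) (a, c) = _
      rw [lp.coeFn_sum, Finset.sum_apply, Finset.sum_eq_single a]
      · rw [lp.coeFn_sub, Pi.sub_apply, hs, hs]
        simp only [Prod.mk.injEq, true_and]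
      · intro a' _ ha'
        rw [lp.coeFn_sub, Pi.sub_apply, hs, hs, if_neg, if_neg, sub_zero]
        · exact fun e => ha' (Prod.mk.inj e).1.symm
        · exact fun e => ha' (Prod.mk.inj e).1.symm
      · intro h
        exact absurd (Finset.mem_univ a) h
    have hbc : ∀ c, b (a, c) = ∑ w, μ w *
        ((if c = (fun i : Fin k => n w (φ a i)) then 1 else 0) -
          if c = (fun i : Fin k => n w i) then 1 else 0) := by
      intro c
      rw [← hb, lp.coeFn_sum, Finset.sum_apply]
      refine Finset.sum_congr rfl fun w _ => ?_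
      rw [lp.coeFn_smul, Pi.smul_apply, smul_eq_mul, ← hnz, hκ]
    have h1 : ∑ w, μ w * h (fun i => n w (φ a i)) - ∑ w, μ w * h (fun i => n w i) =
        ∑ c ∈ T, h c * b (a, c) := by
      simp only [hbc, Finset.mul_sum]
      rw [Finset.sum_comm, ← Finset.sum_sub_distrib]
      refine Finset.sum_congr rfl fun w _ => ?_
      have m1 : (fun i : Fin k => n w (φ a i)) ∈ T :=
        Finset.mem_union_left _ (Finset.mem_image_of_mem _ (Finset.mem_univ w))
      have m2 : (fun i : Fin k => n w i) ∈ T :=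
        Finset.mem_union_right _ (Finset.mem_image_of_mem _ (Finset.mem_univ w))
      simp only [mul_sub, mul_ite, mul_one, mul_zero, Finset.sum_sub_distrib, Finset.sum_ite_eq',
        if_pos m1, if_pos m2]
      ring
    rw [h1]
    have h2 := lp.sum_rpow_le_norm_rpow (p := 1) (by norm_num) b
      (T.map ⟨fun c => (a, c), fun c c' e => (Prod.mk.inj e).2⟩)
    simp only [ENNReal.toReal_one, Real.rpow_one, Finset.sum_map, Function.Embedding.coeFn_mk,
      Real.norm_eq_abs] at h2
    have h3 : ‖b‖ < ε := by simpa using hb1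
    refine (Finset.abs_sum_le_sum_abs _ _).trans (le_trans ?_ (h2.trans h3.le))
    refine Finset.sum_le_sum fun c _ => ?_
    rw [abs_mul]
    exact mul_le_of_le_one_left (abs_nonneg _) (hh c)

end Vale.Agent.P125
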