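import Mathlib

namespace Vale.Agent.P125

open Filter Topology

/-- Markov type `p` (Ball): there is a finite `K` such that for every stationary reversible Markov
chain on a finite state space `S` (stochastic matrix `P`, probability vector `π`, detailed balance),
every `f : S → X` and every `t ≥ 1`,
`E ‖f Z_t - f Z_0‖ ^ p ≤ K ^ p * t * E ‖f Z_1 - f Z_0‖ ^ p`. -/
def HasMarkovType (X : Type*) [NormedAddCommGroup X] (p : ℝ) : Prop :=
  ∃ K : ℝ, 0 ≤ K ∧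
    ∀ (S : Type) [Fintype S] [DecidableEq S] (P : Matrix S S ℝ) (π : S → ℝ),
      (∀ i j, 0 ≤ P i j) → (∀ i, ∑ j, P i j = 1) → (∀ i, 0 ≤ π i) → (∑ i, π i = 1) →
      (∀ i j, π i * P i j = π j * P j i) →
      ∀ (f : S → X) (t : ℕ), 1 ≤ t →
        ∑ i, ∑ j, π i * (P ^ t) i j * ‖f j - f i‖ ^ p ≤
          K ^ p * t * ∑ i, ∑ j, π i * P i j * ‖f j - f i‖ ^ p

/-- The modulus of smoothness of `N`:
`ρ(τ) = sup {(N (x + τ y) + N (x - τ y)) / 2 - 1 : N x = N y = 1}`. -/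
noncomputable def smoothModulus {X : Type*} [AddCommGroup X] [Module ℝ X]
    (N : Seminorm ℝ X) (τ : ℝ) : ℝ :=
  sSup {r : ℝ | ∃ x y : X, N x = 1 ∧ N y = 1 ∧ r = (N (x + τ • y) + N (x - τ • y)) / 2 - 1}

/-- `X` admits an equivalent uniformly smooth norm. -/
def HasEquivUniformlySmoothNorm (X : Type*) [NormedAddCommGroup X] [NormedSpace ℝ X] : Prop :=
  ∃ N : Seminorm ℝ X, (∃ a b : ℝ, 0 < a ∧ 0 < b ∧ ∀ x, a * ‖x‖ ≤ N x ∧ N x ≤ b * ‖x‖) ∧
    Tendsto (fun τ : ℝ => smoothModulus N τ / τ) (𝓝[>] 0) (𝓝 0)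

end Vale.Agent.P125
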