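import Mathlib

namespace Vale.Agent.P125

section
variable {X : Type*} [NormedAddCommGroup X] [NormedSpace ℝ X]

/-- Existence of a shattered binary tree of a given height. -/
def Rk : ℕ → Set X → Set (X →L[ℝ] ℝ) → Prop
  | 0, _, Φ => Φ.Nonempty
  | r + 1, Y, Φ => ∃ y ∈ Y, Rk r Y (Φ ∩ {g | 9 / 10 ≤ g y}) ∧ Rk r Y (Φ ∩ {g | g y ≤ 1 / 2})

theorem Rk.mono {r : ℕ} {Y Y' : Set X} {Φ Φ' : Set (X →L[ℝ] ℝ)} (h : Rk r Y Φ) (hY : Y ⊆ Y')
    (hΦ : Φ ⊆ Φ') : Rk r Y' Φ' := by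
  induction r generalizing Φ Φ' with
  | zero => exact Set.Nonempty.mono hΦ h
  | succ r ih =>
    obtain ⟨y, hy, h1, h2⟩ := h
    exact ⟨y, hY hy, ih h1 (Set.inter_subset_inter_left _ hΦ),
      ih h2 (Set.inter_subset_inter_left _ hΦ)⟩

theorem Rk.nonempty {r : ℕ} {Y : Set X} {Φ : Set (X →L[ℝ] ℝ)} (h : Rk r Y Φ) : Φ.Nonempty := by
  induction r generalizing Φ with
  | zero => exact h
  | succ r ih =>
    obtain ⟨y, -, h1, -⟩ := h
    exact (ih h1).mono Set.inter_subset_left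

theorem Rk.split (n : ℕ) : ∀ (p q : ℕ), p + q = n → ∀ {Y₁ Y₂ : Set X} {Φ : Set (X →L[ℝ] ℝ)},
    Rk n (Y₁ ∪ Y₂) Φ → Rk p Y₁ Φ ∨ Rk q Y₂ Φ := by
  induction n with
  | zero =>
    intro p q hpq Y₁ Y₂ Φ h
    obtain rfl : p = 0 := by omega
    exact Or.inl h.nonempty
  | succ n ih =>
    intro p q hpq Y₁ Y₂ Φ h
    rcases p with _ | p
    · exact Or.inl h.nonempty
    rcases q with _ | q
    · exact Or.inr h.nonempty
    obtain ⟨y, hy | hy, h1, h2⟩ := h
    · rcases ih p (q + 1) (by omega) h1 with a1 | a1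
      · rcases ih p (q + 1) (by omega) h2 with a2 | a2
        · exact Or.inl ⟨y, hy, a1, a2⟩
        · exact Or.inr (a2.mono le_rfl Set.inter_subset_left)
      · exact Or.inr (a1.mono le_rfl Set.inter_subset_left)
    · rcases ih (p + 1) q (by omega) h1 with a1 | a1
      · exact Or.inl (a1.mono le_rfl Set.inter_subset_left)
      · rcases ih (p + 1) q (by omega) h2 with a2 | a2
        · exact Or.inl (a2.mono le_rfl Set.inter_subset_left)
        · exact Or.inr ⟨y, hy, a1, a2⟩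

/-- Increasing threshold system. -/
def T1 (a : ℕ) (Y : Set X) (Φ : Set (X →L[ℝ] ℝ)) : Prop :=
  ∃ y : ℕ → X, (∀ i < a, y i ∈ Y) ∧ ∀ k < a, ∃ g ∈ Φ,
    (∀ i < k, g (y i) ≤ 1 / 2) ∧ ∀ j, k ≤ j → j < a → 7 / 10 ≤ g (y j)

/-- Decreasing threshold system. -/
def T2 (a : ℕ) (Y : Set X) (Φ : Set (X →L[ℝ] ℝ)) : Prop :=
  ∃ y : ℕ → X, (∀ i < a, y i ∈ Y) ∧ ∀ k < a, ∃ g ∈ Φ,
    (∀ i < k, 9 / 10 ≤ g (y i)) ∧ ∀ j, k ≤ j → j < a → g (y j) ≤ 7 / 10

theorem T1.mono {a : ℕ} {Y Y' : Set X} {Φ Φ' : Set (X →L[ℝ] ℝ)} (h : T1 a Y Φ) (hY : Y ⊆ Y')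
    (hΦ : Φ ⊆ Φ') : T1 a Y' Φ' := by
  obtain ⟨y, h1, h2⟩ := h
  refine ⟨y, fun i hi => hY (h1 i hi), fun k hk => ?_⟩
  obtain ⟨g, hg, h3⟩ := h2 k hk
  exact ⟨g, hΦ hg, h3⟩

theorem T2.mono {a : ℕ} {Y Y' : Set X} {Φ Φ' : Set (X →L[ℝ] ℝ)} (h : T2 a Y Φ) (hY : Y ⊆ Y')
    (hΦ : Φ ⊆ Φ') : T2 a Y' Φ' := by
  obtain ⟨y, h1, h2⟩ := h
  refine ⟨y, fun i hi => hY (h1 i hi), fun k hk => ?_⟩
  obtain ⟨g, hg, h3⟩ := h2 k hk
  exact ⟨g, hΦ hg, h3⟩

theorem hodges (n : ℕ) : ∃ h : ℕ, ∀ a b : ℕ, a + b = n → ∀ (Y : Set X) (Φ : Set (X →L[ℝ] ℝ)),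
    Rk h Y Φ → T1 a Y Φ ∨ T2 b Y Φ := by
  induction n with
  | zero =>
    refine ⟨0, fun a b hab Y Φ _ => Or.inl ⟨fun _ => 0, fun i hi => ?_, fun k hk => ?_⟩⟩ <;> omega
  | succ n ih =>
    obtain ⟨h, ih⟩ := ih
    refine ⟨(h + 1) + (h + 1), fun a b hab Y Φ H => ?_⟩
    rcases a with _ | a
    · exact Or.inl ⟨fun _ => 0, fun i hi => by omega, fun k hk => by omega⟩
    rcases b with _ | b
    · exact Or.inr ⟨fun _ => 0, fun i hi => by omega, fun k hk => by omega⟩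
    obtain ⟨f, hf⟩ := H.nonempty
    have hY : Y ⊆ (Y ∩ {y | 7 / 10 ≤ f y}) ∪ (Y ∩ {y | f y ≤ 7 / 10}) := by
      intro y hy
      rcases le_total (7 / 10) (f y) with h1 | h1
      · exact Or.inl ⟨hy, h1⟩
      · exact Or.inr ⟨hy, h1⟩
    rcases Rk.split _ (h + 1) (h + 1) rfl (H.mono hY le_rfl) with H1 | H1
    · obtain ⟨y₀, hy₀, -, H2⟩ := H1
      rcases ih a (b + 1) (by omega) _ _ H2 with ⟨y, h1, h2⟩ | H3
      · refine Or.inl ⟨fun i => Nat.casesOn i y₀ y, ?_, ?_⟩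
        · rintro (_ | i) hi
          · exact hy₀.1
          · exact (h1 i (by omega)).1
        · rintro (_ | k) hk
          · refine ⟨f, hf, fun i hi => by omega, ?_⟩
            rintro (_ | j) _ hj
            · exact hy₀.2
            · exact (h1 j (by omega)).2
          · obtain ⟨g, hg, h3, h4⟩ := h2 k (by omega)
            refine ⟨g, hg.1, ?_, ?_⟩
            · rintro (_ | i) hi
              · exact hg.2
              · exact h3 i (by omega)
            · rintro (_ | j) hj hj'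
              · omega
              · exact h4 j (by omega) (by omega)
      · exact Or.inr (H3.mono Set.inter_subset_left Set.inter_subset_left)
    · obtain ⟨y₀, hy₀, H2, -⟩ := H1
      rcases ih (a + 1) b (by omega) _ _ H2 with H3 | ⟨y, h1, h2⟩
      · exact Or.inl (H3.mono Set.inter_subset_left Set.inter_subset_left)
      · refine Or.inr ⟨fun i => Nat.casesOn i y₀ y, ?_, ?_⟩
        · rintro (_ | i) hi
          · exact hy₀.1
          · exact (h1 i (by omega)).1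
        · rintro (_ | k) hk
          · refine ⟨f, hf, fun i hi => by omega, ?_⟩
            rintro (_ | j) _ hj
            · exact hy₀.2
            · exact (h1 j (by omega)).2
          · obtain ⟨g, hg, h3, h4⟩ := h2 k (by omega)
            refine ⟨g, hg.1, ?_, ?_⟩
            · rintro (_ | i) hi
              · exact hg.2
              · exact h3 i (by omega)
            · rintro (_ | j) hj hj'
              · omega
              · exact h4 j (by omega) (by omega)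

variable (X) in
/-- A finite James system of length `L`. -/
def James (L : ℕ) : Prop :=
  ∃ y : ℕ → X, (∀ i, ‖y i‖ ≤ 1) ∧ ∀ k < L, ∃ g : X →L[ℝ] ℝ, ‖g‖ ≤ 1 ∧ ∃ s : ℝ,
    (∀ i < k, g (y i) ≤ s) ∧ ∀ j, k ≤ j → j < L → s + 1 / 5 ≤ g (y j)

theorem james_of_rk (H : ∀ d, Rk d {y : X | ‖y‖ ≤ 1} {g : X →L[ℝ] ℝ | ‖g‖ ≤ 1}) (L : ℕ) :
    James X L := by
  obtain ⟨h, hh⟩ := hodges (X := X) (L + L)
  rcases hh L L rfl _ _ (H h) with ⟨y, h1, h2⟩ | ⟨y, h1, h2⟩
  · refine ⟨fun i => if i < L then y i else 0, fun i => ?_, fun k hk => ?_⟩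
    · by_cases hi : i < L
      · simpa [hi] using h1 i hi
      · simp [hi]
    · obtain ⟨g, hg, h3, h4⟩ := h2 k hk
      refine ⟨g, hg, 1 / 2, fun i hi => ?_, fun j hj hj' => ?_⟩
      · simpa [hi.trans hk] using h3 i hi
      · have := h4 j hj hj'
        simp only [if_pos hj']
        linarith
  · refine ⟨fun i => if i < L then y i else 0, fun i => ?_, fun k hk => ?_⟩
    · by_cases hi : i < L
      · simpa [hi] using h1 i hi
      · simp [hi]
    · obtain ⟨g, hg, h3, h4⟩ := h2 k hk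
      refine ⟨-g, by simpa using hg, -(9 / 10), fun i hi => ?_, fun j hj hj' => ?_⟩
      · have := h3 i hi
        simp only [if_pos (hi.trans hk), ContinuousLinearMap.neg_apply]
        linarith
      · have := h4 j hj hj'
        simp only [if_pos hj', ContinuousLinearMap.neg_apply]
        linarith

end

end Vale.Agent.P125
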