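import Vale.Agent.P125.Mart
import Vale.Agent.P125.Rank

namespace Vale.Agent.P125

open Finset

theorem sum_le_of_fibers {Ω Λ : Type} [Fintype Ω] [DecidableEq Λ] (κ : Ω → Λ) (q q' : Ω → ℝ)
    (hq' : ∀ ω, 0 ≤ q' ω) (U Φ : Finset Ω) (hU : ∀ ω ∈ U, ∀ ω', κ ω' = κ ω → ω' ∈ U)
    (hΦ : Φ ⊆ U)
    (h : ∀ ω₀ ∈ Φ, ∑ ω ∈ Φ.filter (fun ω => κ ω = κ ω₀), q ω ≤
      ∑ ω ∈ univ.filter (fun ω => κ ω = κ ω₀), q' ω) :
    ∑ ω ∈ Φ, q ω ≤ ∑ ω ∈ U, q' ω := by
  rw [← Finset.sum_fiberwise_of_maps_to (s := Φ) (t := Φ.image κ) (g := κ)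
    (fun x hx => Finset.mem_image_of_mem κ hx),
    ← Finset.sum_fiberwise_of_maps_to (s := U) (t := U.image κ) (g := κ)
    (fun x hx => Finset.mem_image_of_mem κ hx)]
  refine le_trans (Finset.sum_le_sum fun l hl => ?_)
    (Finset.sum_le_sum_of_subset_of_nonneg (Finset.image_subset_image hΦ)
      fun l _ _ => Finset.sum_nonneg fun ω _ => hq' ω)
  obtain ⟨ω₀, h₀, rfl⟩ := Finset.mem_image.1 hl
  refine (h ω₀ h₀).trans (le_of_eq (Finset.sum_congr ?_ fun _ _ => rfl))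
  ext ω
  simp only [Finset.mem_filter, Finset.mem_univ, true_and]
  exact ⟨fun e => ⟨hU ω₀ (hΦ h₀) ω e, e⟩, fun e => e.2⟩

theorem sum_shift_le (g : ℕ → ℝ) (hg : ∀ j, 0 ≤ g j) {c s n : ℕ} (h : c + s ≤ n) :
    ∑ k ∈ range s, g (c + k) ≤ ∑ j ∈ range n, g j := by
  have : ∑ k ∈ range s, g (c + k) = ∑ j ∈ Ico c (c + s), g j := by
    rw [Finset.sum_Ico_eq_sum_range]; simp
  rw [this]
  refine Finset.sum_le_sum_of_subset_of_nonneg (fun j hj => ?_) fun j _ _ => hg j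
  have := Finset.mem_Ico.1 hj
  exact Finset.mem_range.2 (by omega)

section
variable {X : Type*} [NormedAddCommGroup X] [NormedSpace ℝ X]
variable {Ω Λ : Type} [Fintype Ω] [DecidableEq Λ]

/-- A good level for a path. -/
def Good (p : Ω → ℝ) (κ : ℕ → Ω → Λ) (M : ℕ → Ω → X) (f : Ω → X →L[ℝ] ℝ) (j : ℕ) (ω : Ω) : Prop :=
  9 / 10 * ‖M (j + 1) ω - M j ω‖ ≤ f ω (M (j + 1) ω - M j ω) ∧
  9 / 10 * ∑ ω' ∈ univ.filter (fun ω' => κ j ω' = κ j ω), p ω' * ‖M (j + 1) ω' - M j ω'‖ <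
    (∑ ω' ∈ univ.filter (fun ω' => κ j ω' = κ j ω), p ω') * ‖M (j + 1) ω - M j ω‖

open Classical in
/-- The number of bad levels among `i, …, i + s - 1`. -/
noncomputable def nbad (p : Ω → ℝ) (κ : ℕ → Ω → Λ) (M : ℕ → Ω → X) (f : Ω → X →L[ℝ] ℝ)
    (i s : ℕ) (ω : Ω) : ℕ :=
  ∑ k ∈ range s, if Good p κ M f (i + k) ω then 0 else 1

open Classical in
theorem nbad_succ (p : Ω → ℝ) (κ : ℕ → Ω → Λ) (M : ℕ → Ω → X) (f : Ω → X →L[ℝ] ℝ)
    (i s : ℕ) (ω : Ω) :
    nbad p κ M f i (s + 1) ω = nbad p κ M f (i + 1) s ω + if Good p κ M f i ω then 0 else 1 := by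
  unfold nbad
  rw [Finset.sum_range_succ']
  simp only [add_zero]
  congr 1
  refine Finset.sum_congr rfl fun k _ => ?_
  rw [show i + (k + 1) = i + 1 + k by ring]

theorem IsMart.D_meas {p : Ω → ℝ} {κ : ℕ → Ω → Λ} {M : ℕ → Ω → X} (hM : IsMart p κ M) {i : ℕ}
    {ω ω' : Ω} (e : κ (i + 1) ω = κ (i + 1) ω') :
    M (i + 1) ω - M i ω = M (i + 1) ω' - M i ω' := by
  rw [hM.meas _ _ _ e, hM.meas _ _ _ (hM.refine _ _ _ e)]

theorem count_bound {p : Ω → ℝ} {κ : ℕ → Ω → Λ} {M : ℕ → Ω → X} (hM : IsMart p κ M)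
    (f : Ω → X →L[ℝ] ℝ) (hf : ∀ ω, ‖f ω‖ ≤ 1) (s : ℕ) :
    ∀ (i : ℕ) (U Φ : Finset Ω) (r j : ℕ), (∀ ω ∈ U, ∀ ω', κ i ω' = κ i ω → ω' ∈ U) → Φ ⊆ U →
      (∀ ω ∈ Φ, ¬ Rk r {y : X | ‖y‖ ≤ 1} (f '' {ω' | ω' ∈ Φ ∧ κ i ω' = κ i ω})) →
      (∀ ω ∈ Φ, nbad p κ M f i s ω < j) →
      ∑ ω ∈ Φ, p ω ≤ (19 / 20) ^ s * 160 ^ (j + r) * ∑ ω ∈ U, p ω := by
  classical
  induction s with
  | zero =>
    intro i U Φ r j _ hΦ _ _
    have h1 : ∑ ω ∈ Φ, p ω ≤ ∑ ω ∈ U, p ω :=
      Finset.sum_le_sum_of_subset_of_nonneg hΦ fun ω _ _ => hM.nonneg ω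
    have h2 : (1 : ℝ) ≤ 160 ^ (j + r) := one_le_pow₀ (by norm_num)
    have h3 : 0 ≤ ∑ ω ∈ U, p ω := Finset.sum_nonneg fun ω _ => hM.nonneg ω
    rw [pow_zero, one_mul]
    nlinarith
  | succ s ih =>
    intro i U Φ r j hU hΦ hr hj
    rw [Finset.mul_sum]
    refine sum_le_of_fibers (κ i) p _
      (fun ω => mul_nonneg (by positivity) (hM.nonneg ω)) U Φ hU hΦ fun ω₀ h₀ => ?_
    rw [← Finset.mul_sum]
    set A := univ.filter (fun ω => κ i ω = κ i ω₀) with hA
    set Φ' := Φ.filter (fun ω => κ i ω = κ i ω₀) with hΦ'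
    have hr0 : ¬ Rk r {y : X | ‖y‖ ≤ 1} (f '' (Φ' : Set Ω)) := by
      intro h
      refine hr ω₀ h₀ (h.mono le_rfl (Set.image_mono fun ω hω => ?_))
      simpa [hΦ'] using hω
    rcases r with _ | r
    · exact absurd ⟨f ω₀, ω₀, by simp [hΦ', h₀], rfl⟩ hr0
    rcases j with _ | j
    · exact absurd (hj ω₀ h₀) (Nat.not_lt_zero _)
    have hAm : ∀ ω ∈ A, ∀ ω', κ (i + 1) ω' = κ (i + 1) ω → ω' ∈ A := by
      intro ω hω ω' e
      simp only [hA, Finset.mem_filter, Finset.mem_univ, true_and] at hω ⊢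
      exact (hM.refine i _ _ e).trans hω
    have hΦA : Φ' ⊆ A := by
      intro ω hω
      simp only [hA, hΦ', Finset.mem_filter, Finset.mem_univ, true_and] at hω ⊢
      exact hω.2
    have hj' : ∀ ω ∈ Φ', nbad p κ M f (i + 1) s ω < j + 1 := by
      intro ω hω
      have := hj ω (Finset.mem_filter.1 hω).1
      rw [nbad_succ] at this
      omega
    set Φg := Φ'.filter (fun ω => Good p κ M f i ω) with hΦg
    set C := A.filter (fun ω => Rk r {y : X | ‖y‖ ≤ 1}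
      (f '' {ω' | ω' ∈ Φg ∧ κ (i + 1) ω' = κ (i + 1) ω})) with hC
    set B : ℝ := (19 / 20) ^ s * 160 ^ (j + r + 1) with hB
    have hB0 : 0 < B := by positivity
    have eB : ((19 : ℝ) / 20) ^ (s + 1) * 160 ^ (j + 1 + (r + 1)) = 152 * B := by
      rw [hB]; ring
    rw [eB]
    have hA0 : 0 ≤ ∑ ω ∈ A, p ω := Finset.sum_nonneg fun ω _ => hM.nonneg ω
    rcases le_or_gt (∑ ω ∈ C, p ω) (9 / 10 * ∑ ω ∈ A, p ω) with hc | hc
    · have i1 := ih (i + 1) C (Φg.filter (fun ω => ω ∈ C)) (r + 1) (j + 1)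
        (by
          intro ω hω ω' e
          rw [hC, Finset.mem_filter] at hω ⊢
          exact ⟨hAm ω hω.1 ω' e, by simpa only [e] using hω.2⟩)
        (fun ω hω => (Finset.mem_filter.1 hω).2)
        (fun ω _ h => hr0 (h.mono le_rfl (Set.image_mono fun ω' hω' =>
          (Finset.mem_filter.1 (Finset.mem_filter.1 hω'.1).1).1)))
        (fun ω hω => hj' ω (Finset.mem_filter.1 (Finset.mem_filter.1 hω).1).1)
      have i2 := ih (i + 1) A (Φg.filter (fun ω => ¬ ω ∈ C)) r (j + 1) hAm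
        (fun ω hω => hΦA (Finset.mem_filter.1 (Finset.mem_filter.1 hω).1).1)
        (by
          intro ω hω h
          obtain ⟨h1, h2⟩ := Finset.mem_filter.1 hω
          refine h2 (Finset.mem_filter.2 ⟨hΦA (Finset.mem_filter.1 h1).1, ?_⟩)
          exact h.mono le_rfl (Set.image_mono fun ω' hω' =>
            ⟨(Finset.mem_filter.1 hω'.1).1, hω'.2⟩))
        (fun ω hω => hj' ω (Finset.mem_filter.1 (Finset.mem_filter.1 hω).1).1)
      have i3 := ih (i + 1) A (Φ'.filter (fun ω => ¬ Good p κ M f i ω)) (r + 1) j hAm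
        (fun ω hω => hΦA (Finset.mem_filter.1 hω).1)
        (fun ω _ h => hr0 (h.mono le_rfl (Set.image_mono fun ω' hω' =>
          (Finset.mem_filter.1 hω'.1).1)))
        (by
          intro ω hω
          obtain ⟨h1, h2⟩ := Finset.mem_filter.1 hω
          have := hj ω (Finset.mem_filter.1 h1).1
          rw [nbad_succ, if_neg h2] at this
          omega)
      have s1 := Finset.sum_filter_add_sum_filter_not Φ' (fun ω => Good p κ M f i ω) p
      have s2 := Finset.sum_filter_add_sum_filter_not Φg (fun ω => ω ∈ C) p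
      have e1 : ((19 : ℝ) / 20) ^ s * 160 ^ (j + 1 + (r + 1)) = 160 * B := by rw [hB]; ring
      have e2 : ((19 : ℝ) / 20) ^ s * 160 ^ (j + 1 + r) = B := by rw [hB]; ring
      have e3 : ((19 : ℝ) / 20) ^ s * 160 ^ (j + (r + 1)) = B := by rw [hB]; ring
      rw [e1] at i1
      rw [e2] at i2
      rw [e3] at i3
      have := mul_le_mul_of_nonneg_left hc hB0.le
      have := mul_nonneg hB0.le hA0
      rw [← hΦg] at s1
      nlinarith
    · set D : Ω → X := fun ω => M (i + 1) ω - M i ω with hD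
      set m := ∑ ω ∈ A, p ω * ‖D ω‖ with hm
      have hCA : C ⊆ A := Finset.filter_subset _ _
      have hCle : ∑ ω ∈ C, p ω ≤ ∑ ω ∈ A, p ω :=
        Finset.sum_le_sum_of_subset_of_nonneg hCA fun ω _ _ => hM.nonneg ω
      have hApos : 0 < ∑ ω ∈ A, p ω := by linarith
      have hm0 : 0 ≤ m := Finset.sum_nonneg fun ω _ => mul_nonneg (hM.nonneg ω) (norm_nonneg _)
      have hCg : ∀ ω ∈ C, 9 / 10 * m < (∑ ω ∈ A, p ω) * ‖D ω‖ := by
        intro ω hω
        obtain ⟨g, ω', ⟨h1, h2⟩, -⟩ := (Finset.mem_filter.1 hω).2.nonempty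
        obtain ⟨h3, h4⟩ := Finset.mem_filter.1 h1
        have h5 := h4.2
        have h6 : κ i ω' = κ i ω₀ := (Finset.mem_filter.1 h3).2
        rw [h6, hM.D_meas h2] at h5
        exact h5
      have hDpos : ∀ ω ∈ C, 0 < ‖D ω‖ := by
        intro ω hω
        have := hCg ω hω
        by_contra hn
        have h0 : ‖D ω‖ = 0 := le_antisymm (not_lt.1 hn) (norm_nonneg _)
        rw [h0] at this
        linarith
      set mC := ∑ ω ∈ C, p ω * ‖D ω‖ with hmC
      have hmC1 : 81 / 100 * m ≤ mC := by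
        have h1 : 9 / 10 * m * ∑ ω ∈ C, p ω ≤ (∑ ω ∈ A, p ω) * mC := by
          rw [hmC, Finset.mul_sum C, Finset.mul_sum C]
          refine Finset.sum_le_sum fun ω hω => ?_
          have := mul_le_mul_of_nonneg_left (hCg ω hω).le (hM.nonneg ω)
          linarith
        have h2 := mul_le_mul_of_nonneg_left hc.le hm0
        have h3 : (∑ ω ∈ A, p ω) * (81 / 100 * m) ≤ (∑ ω ∈ A, p ω) * mC := by linarith
        exact le_of_mul_le_mul_left h3 hApos
      have hmCle : mC ≤ m := Finset.sum_le_sum_of_subset_of_nonneg hCA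
        fun ω _ _ => mul_nonneg (hM.nonneg ω) (norm_nonneg _)
      have hmpos : 0 < m := by
        have h1 : 0 < ∑ ω ∈ C, p ω := by linarith
        obtain ⟨ω, hω, h2⟩ := Finset.exists_ne_zero_of_sum_ne_zero h1.ne'
        have h3 : 0 < p ω * ‖D ω‖ :=
          mul_pos (lt_of_le_of_ne (hM.nonneg ω) (Ne.symm h2)) (hDpos ω hω)
        exact h3.trans_le (Finset.single_le_sum (f := fun ω => p ω * ‖D ω‖)
          (fun ω _ => mul_nonneg (hM.nonneg ω) (norm_nonneg _)) (hCA hω))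
      have hzero : ∑ ω ∈ A, p ω • D ω = 0 := by
        have := hM.mart i (fun ω => if κ i ω = κ i ω₀ then 1 else 0)
          (fun ω ω' e => by simp only [e])
        rw [hA, Finset.sum_filter]
        refine Eq.trans (Finset.sum_congr rfl fun ω _ => ?_) this
        split_ifs <;> simp [hD]
      have hL : ∀ g : X →L[ℝ] ℝ, ‖g‖ ≤ 1 →
          m / 8 ≤ ∑ ω' ∈ C, if g (D ω') ≤ ‖D ω'‖ / 2 then p ω' * ‖D ω'‖ else 0 := by
        intro g hg
        have h1 : ∑ ω ∈ A, p ω * g (D ω) = 0 := by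
          have := congrArg g hzero
          simpa [map_sum] using this
        have hgl : ∀ z : X, -‖z‖ ≤ g z := by
          intro z
          have := g.le_of_opNorm_le hg z
          rw [one_mul, Real.norm_eq_abs] at this
          exact neg_le_of_abs_le this
        have h2 : ∑ ω ∈ A, (-(p ω * ‖D ω‖) + if ω ∈ C then (3 / 2 * (p ω * ‖D ω‖) -
            3 / 2 * if g (D ω) ≤ ‖D ω‖ / 2 then p ω * ‖D ω‖ else 0) else 0) ≤
            ∑ ω ∈ A, p ω * g (D ω) := by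
          refine Finset.sum_le_sum fun ω _ => ?_
          have a1 := mul_le_mul_of_nonneg_left (hgl (D ω)) (hM.nonneg ω)
          split_ifs with c1 c2
          · linarith
          · have := mul_le_mul_of_nonneg_left (not_le.1 c2).le (hM.nonneg ω)
            linarith
          · linarith
        rw [h1, Finset.sum_add_distrib, Finset.sum_neg_distrib, ← Finset.sum_filter,
          Finset.filter_mem_eq_inter, Finset.inter_eq_right.2 hCA, Finset.sum_sub_distrib,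
          ← Finset.mul_sum, ← Finset.mul_sum] at h2
        linarith
      have hIH : ∀ ω' ∈ C, ∑ ω ∈ Φ'.filter (fun ω => f ω (D ω') ≤ ‖D ω'‖ / 2), p ω ≤
          B * ∑ ω ∈ A, p ω := by
        intro ω' hω'
        have e2 : ((19 : ℝ) / 20) ^ s * 160 ^ (j + 1 + r) = B := by rw [hB]; ring
        rw [← e2]
        refine ih (i + 1) A _ r (j + 1) hAm (fun ω hω => hΦA (Finset.mem_filter.1 hω).1) ?_
          (fun ω hω => hj' ω (Finset.mem_filter.1 hω).1)
        intro ω _ h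
        have hpos := hDpos ω' hω'
        refine hr0 ⟨‖D ω'‖⁻¹ • D ω', ?_, ?_, ?_⟩
        · simp only [Set.mem_setOf_eq, norm_smul, norm_inv, norm_norm]
          rw [inv_mul_cancel₀ hpos.ne']
        · refine (Finset.mem_filter.1 hω').2.mono le_rfl ?_
          rintro _ ⟨ω'', ⟨h1, h2⟩, rfl⟩
          obtain ⟨h3, h4⟩ := Finset.mem_filter.1 h1
          refine ⟨⟨ω'', h3, rfl⟩, ?_⟩
          have h5 := h4.1
          rw [hM.D_meas h2] at h5
          simp only [Set.mem_setOf_eq, map_smul, smul_eq_mul]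
          rw [← div_eq_inv_mul, le_div_iff₀ hpos]
          exact h5
        · refine h.mono le_rfl ?_
          rintro _ ⟨ω'', ⟨h1, -⟩, rfl⟩
          obtain ⟨h3, h4⟩ := Finset.mem_filter.1 h1
          refine ⟨⟨ω'', h3, rfl⟩, ?_⟩
          simp only [Set.mem_setOf_eq, map_smul, smul_eq_mul]
          rw [← div_eq_inv_mul, div_le_iff₀ hpos]
          linarith
      have hdbl : (∑ ω ∈ Φ', p ω) * (m / 8) ≤ mC * (B * ∑ ω ∈ A, p ω) := by
        calc _ ≤ ∑ ω ∈ Φ', p ω *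
              ∑ ω' ∈ C, if f ω (D ω') ≤ ‖D ω'‖ / 2 then p ω' * ‖D ω'‖ else 0 := by
              rw [Finset.sum_mul]
              exact Finset.sum_le_sum fun ω _ =>
                mul_le_mul_of_nonneg_left (hL _ (hf ω)) (hM.nonneg ω)
          _ = ∑ ω' ∈ C, p ω' * ‖D ω'‖ *
              ∑ ω ∈ Φ'.filter (fun ω => f ω (D ω') ≤ ‖D ω'‖ / 2), p ω := by
              simp only [Finset.mul_sum, Finset.sum_filter]
              rw [Finset.sum_comm]
              refine Finset.sum_congr rfl fun ω' _ => Finset.sum_congr rfl fun ω _ => ?_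
              split_ifs <;> ring
          _ ≤ _ := by
              rw [hmC, Finset.sum_mul]
              exact Finset.sum_le_sum fun ω' hω' => mul_le_mul_of_nonneg_left (hIH ω' hω')
                (mul_nonneg (hM.nonneg _) (norm_nonneg _))
      have hBA := mul_nonneg hB0.le hA0
      have h7 : mC * (B * ∑ ω ∈ A, p ω) ≤ m * (B * ∑ ω ∈ A, p ω) :=
        mul_le_mul_of_nonneg_right hmCle hBA
      have h8 : m * ∑ ω ∈ Φ', p ω ≤ m * (8 * (B * ∑ ω ∈ A, p ω)) := by linarith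
      have h9 := le_of_mul_le_mul_left h8 hmpos
      linarith

theorem bad2_bound {p : Ω → ℝ} {κ : ℕ → Ω → Λ} {M : ℕ → Ω → X} (hM : IsMart p κ M) (j : ℕ)
    (α a : Ω → ℝ) (hα : ∀ ω ω', κ j ω = κ j ω' → α ω = α ω') (hα0 : ∀ ω, 0 ≤ α ω)
    (ha0 : ∀ ω, 0 ≤ a ω) :
    ∑ ω, (if (∑ ω' ∈ univ.filter (fun ω' => κ j ω' = κ j ω), p ω') * a ω ≤
      9 / 10 * ∑ ω' ∈ univ.filter (fun ω' => κ j ω' = κ j ω), p ω' * a ω'
      then p ω * α ω ^ 2 else 0) ≤ ∑ ω, 442 * (p ω * (α ω - a ω) ^ 2) := by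
  refine sum_le_of_fibers (κ j) _ _
    (fun ω => mul_nonneg (by norm_num) (mul_nonneg (hM.nonneg ω) (sq_nonneg _))) univ univ
    (fun _ _ _ _ => Finset.mem_univ _) le_rfl fun ω₀ _ => ?_
  set A := univ.filter (fun ω => κ j ω = κ j ω₀) with hA
  have hmem : ∀ ω ∈ A, κ j ω = κ j ω₀ := fun ω hω => (Finset.mem_filter.1 hω).2
  set P := ∑ ω ∈ A, p ω with hP
  set m := ∑ ω ∈ A, p ω * a ω with hm
  set c := α ω₀ with hc
  have hc0 : 0 ≤ c := hα0 ω₀
  have e1 : ∑ ω ∈ A, (if (∑ ω' ∈ univ.filter (fun ω' => κ j ω' = κ j ω), p ω') * a ω ≤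
      9 / 10 * ∑ ω' ∈ univ.filter (fun ω' => κ j ω' = κ j ω), p ω' * a ω'
      then p ω * α ω ^ 2 else 0) =
      ∑ ω ∈ A, (if P * a ω ≤ 9 / 10 * m then p ω * c ^ 2 else 0) := by
    refine Finset.sum_congr rfl fun ω hω => ?_
    rw [hmem ω hω, hα ω ω₀ (hmem ω hω)]
  have e2 : ∑ ω ∈ A, 442 * (p ω * (α ω - a ω) ^ 2) = ∑ ω ∈ A, 442 * (p ω * (c - a ω) ^ 2) :=
    Finset.sum_congr rfl fun ω hω => by rw [hα ω ω₀ (hmem ω hω)]
  rw [e1, e2]
  have hP0 : 0 ≤ P := Finset.sum_nonneg fun ω _ => hM.nonneg ω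
  rcases hP0.eq_or_lt with h0 | hpos
  · have hz : ∀ ω ∈ A, p ω = 0 :=
      (Finset.sum_eq_zero_iff_of_nonneg fun ω _ => hM.nonneg ω).1 h0.symm
    refine Finset.sum_le_sum fun ω hω => ?_
    simp [hz ω hω]
  set μ := m / P with hμ
  have hmμ : m = μ * P := by rw [hμ]; field_simp
  have hμ0 : 0 ≤ μ :=
    div_nonneg (Finset.sum_nonneg fun ω _ => mul_nonneg (hM.nonneg ω) (ha0 ω)) hP0
  have jensen : P * (c - μ) ^ 2 ≤ ∑ ω ∈ A, p ω * (c - a ω) ^ 2 := by
    have h1 : ∑ ω ∈ A, p ω * ((c - μ) ^ 2 + 2 * (c - μ) * (μ - a ω)) ≤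
        ∑ ω ∈ A, p ω * (c - a ω) ^ 2 :=
      Finset.sum_le_sum fun ω _ => mul_le_mul_of_nonneg_left
        (by nlinarith [sq_nonneg (μ - a ω)]) (hM.nonneg ω)
    refine le_trans (le_of_eq ?_) h1
    have h2 : ∀ ω, p ω * ((c - μ) ^ 2 + 2 * (c - μ) * (μ - a ω)) =
        ((c - μ) ^ 2 + 2 * (c - μ) * μ) * p ω - 2 * (c - μ) * (p ω * a ω) := fun ω => by ring
    simp only [h2, Finset.sum_sub_distrib, ← Finset.mul_sum]
    rw [← hP, ← hm, hmμ]
    ring
  calc _ ≤ ∑ ω ∈ A, (200 * (p ω * (c - a ω) ^ 2) + 242 * (c - μ) ^ 2 * p ω) := by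
        refine Finset.sum_le_sum fun ω _ => ?_
        have hp := hM.nonneg ω
        split_ifs with h1
        · have h2 : a ω ≤ 9 / 10 * μ := by
            rw [hmμ] at h1
            have : P * a ω ≤ P * (9 / 10 * μ) := by linarith
            exact le_of_mul_le_mul_left this hpos
          have h3 : c ≤ 10 * |c - a ω| + 11 * |c - μ| := by
            have a1 := le_abs_self (c - a ω)
            have a2 := neg_abs_le (c - μ)
            have a3 := le_abs_self (c - μ)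
            linarith
          have h4 : c ^ 2 ≤ 200 * (c - a ω) ^ 2 + 242 * (c - μ) ^ 2 := by
            have h5 := pow_le_pow_left₀ hc0 h3 2
            rw [← sq_abs (c - a ω), ← sq_abs (c - μ)]
            nlinarith [sq_nonneg (10 * |c - a ω| - 11 * |c - μ|)]
          have := mul_le_mul_of_nonneg_left h4 hp
          linarith
        · positivity
    _ = 200 * ∑ ω ∈ A, p ω * (c - a ω) ^ 2 + 242 * (P * (c - μ) ^ 2) := by
        rw [Finset.sum_add_distrib, ← Finset.mul_sum, ← Finset.mul_sum]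
        ring
    _ ≤ 442 * ∑ ω ∈ A, p ω * (c - a ω) ^ 2 := by linarith
    _ = _ := by rw [Finset.mul_sum]

end

theorem exists_MP_of_not_rk {X : Type*} [NormedAddCommGroup X] [NormedSpace ℝ X] (d : ℕ)
    (H : ¬ Rk d {y : X | ‖y‖ ≤ 1} {g : X →L[ℝ] ℝ | ‖g‖ ≤ 1}) :
    ∃ (n : ℕ) (γ : ℝ), 1 ≤ n ∧ 0 ≤ γ ∧ γ < 1 ∧ MP X n (γ * n) := by
  classical
  obtain ⟨j₀, hj₀⟩ : ∃ j₀, j₀ = d + 1 := ⟨_, rfl⟩
  obtain ⟨s, hs⟩ : ∃ s, s = 200 * j₀ := ⟨_, rfl⟩
  refine ⟨s + s, 1 - 1 / 2169608, by omega, by norm_num, by norm_num, ?_⟩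
  intro Ω Λ _ p κ M hM
  obtain ⟨n, hn⟩ : ∃ n, n = s + s := ⟨_, rfl⟩
  rw [← hn]
  choose f hf hfS using fun ω => exists_dual_vector'' ℝ (M n ω - M 0 ω)
  set a : ℕ → Ω → ℝ := fun j ω => ‖M (j + 1) ω - M j ω‖ with ha
  set b : ℕ → Ω → ℝ := fun j ω => f ω (M (j + 1) ω - M j ω) with hb
  have ha0 : ∀ j ω, 0 ≤ a j ω := fun j ω => norm_nonneg _
  have hba : ∀ j ω, b j ω ≤ a j ω := by
    intro j ω
    have := (f ω).le_of_opNorm_le (hf ω) (M (j + 1) ω - M j ω)
    rw [one_mul, Real.norm_eq_abs] at this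
    exact le_of_abs_le this
  have hsum : ∀ ω, ∑ j ∈ range n, b j ω = ‖M n ω - M 0 ω‖ := by
    intro ω
    simp only [hb]
    rw [← map_sum, Finset.sum_range_sub (fun j => M j ω)]
    simpa using hfS ω
  set e : ℕ → ℕ → Ω → ℝ := fun i j ω => (a i ω - a j ω) ^ 2 / 2 + a i ω * (a j ω - b j ω) with he
  have he0 : ∀ i j ω, 0 ≤ e i j ω := fun i j ω => by
    have := mul_nonneg (ha0 i ω) (sub_nonneg.2 (hba j ω))
    simp only [he]
    positivity
  set E : ℕ → ℕ → ℝ := fun i j => ∑ ω, p ω * e i j ω with hE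
  have hE0 : ∀ i j, 0 ≤ E i j := fun i j =>
    Finset.sum_nonneg fun ω _ => mul_nonneg (hM.nonneg ω) (he0 i j ω)
  set Q : ℕ → ℝ := fun j => ∑ ω, p ω * a j ω ^ 2 with hQ
  have hQ0 : ∀ j, 0 ≤ Q j := fun j =>
    Finset.sum_nonneg fun ω _ => mul_nonneg (hM.nonneg ω) (sq_nonneg _)
  set Δ := ∑ i ∈ range n, ∑ j ∈ range n, E i j with hΔ
  -- the defect
  have step1 : ∑ ω, p ω * ‖M n ω - M 0 ω‖ ^ 2 + Δ ≤ n * ∑ j ∈ range n, Q j := by
    have h1 : ∀ ω, ‖M n ω - M 0 ω‖ ^ 2 + ∑ i ∈ range n, ∑ j ∈ range n, e i j ω ≤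
        n * ∑ j ∈ range n, a j ω ^ 2 := by
      intro ω
      have h2 : ∑ i ∈ range n, ∑ j ∈ range n, e i j ω =
          n * ∑ j ∈ range n, a j ω ^ 2 - (∑ j ∈ range n, a j ω) * ∑ j ∈ range n, b j ω := by
        have : ∀ i j, e i j ω = a i ω ^ 2 / 2 + a j ω ^ 2 / 2 - a i ω * b j ω := fun i j => by
          simp only [he]; ring
        simp only [this, Finset.sum_sub_distrib, Finset.sum_add_distrib, Finset.sum_const,
          Finset.card_range, nsmul_eq_mul, ← Finset.mul_sum, ← Finset.sum_mul, ← Finset.sum_div]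
        ring
      have h3 : ∑ j ∈ range n, b j ω ≤ ∑ j ∈ range n, a j ω :=
        Finset.sum_le_sum fun j _ => hba j ω
      rw [h2]
      rw [hsum ω] at h3 ⊢
      nlinarith [norm_nonneg (M n ω - M 0 ω)]
    have h4 : Δ = ∑ ω, p ω * ∑ i ∈ range n, ∑ j ∈ range n, e i j ω := by
      simp only [hΔ, hE, Finset.mul_sum]
      rw [Finset.sum_comm (s := univ)]
      refine Finset.sum_congr rfl fun i _ => ?_
      rw [Finset.sum_comm]
    have h5 : (n : ℝ) * ∑ j ∈ range n, Q j = ∑ ω, p ω * (n * ∑ j ∈ range n, a j ω ^ 2) := by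
      simp only [hQ, Finset.mul_sum]
      rw [Finset.sum_comm]
      exact Finset.sum_congr rfl fun ω _ => Finset.sum_congr rfl fun j _ => by ring
    rw [h4, h5, ← Finset.sum_add_distrib]
    refine Finset.sum_le_sum fun ω _ => ?_
    rw [← mul_add]
    exact mul_le_mul_of_nonneg_left (h1 ω) (hM.nonneg ω)
  -- bad levels cost defect
  have step2 : ∀ i j, i + 1 ≤ j →
      ∑ ω, p ω * a i ω ^ 2 * (if Good p κ M f j ω then 0 else 1) ≤ 904 * E i j := by
    intro i j hij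
    have h1 := bad2_bound hM j (a i) (a j)
      (fun ω ω' h => by simp only [ha]; rw [hM.D_meas (hM.refine_le hij h)]) (ha0 i) (ha0 j)
    have h2 : ∑ ω, 442 * (p ω * (a i ω - a j ω) ^ 2) ≤ 884 * E i j := by
      simp only [hE, Finset.mul_sum]
      refine Finset.sum_le_sum fun ω _ => ?_
      have := mul_nonneg (hM.nonneg ω) (mul_nonneg (ha0 i ω) (sub_nonneg.2 (hba j ω)))
      simp only [he]
      linarith
    have h3 : 904 * E i j = 20 * E i j + 884 * E i j := by ring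
    rw [h3]
    refine le_trans ?_ (add_le_add le_rfl (h1.trans h2))
    simp only [hE]
    rw [Finset.mul_sum, ← Finset.sum_add_distrib]
    refine Finset.sum_le_sum fun ω _ => ?_
    have hp := hM.nonneg ω
    have q1 := mul_nonneg hp (he0 i j ω)
    have q2 := mul_nonneg hp (sq_nonneg (a i ω))
    by_cases hG : Good p κ M f j ω
    · rw [if_pos hG]
      split_ifs <;> linarith
    · rw [if_neg hG, mul_one]
      split_ifs with c
      · linarith
      · have h4 : b j ω < 9 / 10 * a j ω := by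
          by_contra h5
          exact hG ⟨not_lt.1 h5, not_le.1 c⟩
        have h5 : a i ω ^ 2 ≤ 20 * e i j ω := by
          simp only [he]
          have := ha0 i ω
          have := ha0 j ω
          have h6 : a i ω * (1 / 10 * a j ω) ≤ a i ω * (a j ω - b j ω) :=
            mul_le_mul_of_nonneg_left (by linarith) (ha0 i ω)
          nlinarith [sq_nonneg (a i ω - a j ω), sq_nonneg (3 * a i ω - 10 / 3 * a j ω)]
        have := mul_le_mul_of_nonneg_left h5 hp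
        linarith
  -- many bad levels
  have hB : ((19 : ℝ) / 20) ^ s * 160 ^ (j₀ + d) ≤ 1 / 2 := by
    have h1 : ((19 : ℝ) / 20) ^ 200 * 160 ^ 2 ≤ 1 := by norm_num
    have h2 : ((19 : ℝ) / 20) ^ s * 160 ^ (j₀ + d) * 160 =
        (((19 : ℝ) / 20) ^ 200 * 160 ^ 2) ^ j₀ := by
      rw [mul_pow, ← pow_mul, ← pow_mul, hs, mul_assoc, ← pow_succ]
      congr 2
      omega
    have h3 : (((19 : ℝ) / 20) ^ 200 * 160 ^ 2) ^ j₀ ≤ 1 := pow_le_one₀ (by positivity) h1
    linarith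
  have step3 : ∀ i, (j₀ : ℝ) / 2 * Q i ≤ ∑ ω, p ω * a i ω ^ 2 * nbad p κ M f (i + 1) s ω := by
    intro i
    set Φ := univ.filter (fun ω => nbad p κ M f (i + 1) s ω < j₀) with hΦ
    have h1 : ∑ ω ∈ Φ, p ω * a i ω ^ 2 ≤ ∑ ω, 1 / 2 * (p ω * a i ω ^ 2) := by
      refine sum_le_of_fibers (κ (i + 1)) _ _
        (fun ω => mul_nonneg (by norm_num) (mul_nonneg (hM.nonneg ω) (sq_nonneg _))) univ Φ
        (fun _ _ _ _ => Finset.mem_univ _) (Finset.subset_univ _) fun ω₀ _ => ?_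
      have h2 := count_bound hM f hf s (i + 1) (univ.filter (fun ω => κ (i + 1) ω = κ (i + 1) ω₀))
        (Φ.filter (fun ω => κ (i + 1) ω = κ (i + 1) ω₀)) d j₀
        (fun ω hω ω' h => Finset.mem_filter.2
          ⟨Finset.mem_univ _, h.trans (Finset.mem_filter.1 hω).2⟩)
        (Finset.filter_subset_filter _ (Finset.subset_univ _))
        (fun ω _ h => H (h.mono le_rfl (by rintro _ ⟨ω', -, rfl⟩; exact hf ω')))
        (fun ω hω => (Finset.mem_filter.1 (Finset.mem_filter.1 hω).1).2)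
      have h3 : ∀ ω, κ (i + 1) ω = κ (i + 1) ω₀ → a i ω = a i ω₀ := fun ω h => by
        simp only [ha]; rw [hM.D_meas h]
      rw [Finset.sum_congr rfl (fun ω hω => by rw [h3 ω (Finset.mem_filter.1 hω).2]),
        Finset.sum_congr rfl (fun ω hω => by rw [h3 ω (Finset.mem_filter.1 hω).2] :
          ∀ ω ∈ univ.filter (fun ω => κ (i + 1) ω = κ (i + 1) ω₀),
            1 / 2 * (p ω * a i ω ^ 2) = 1 / 2 * (p ω * a i ω₀ ^ 2)),
        ← Finset.sum_mul, ← Finset.mul_sum, ← Finset.sum_mul]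
      have h4 : 0 ≤ ∑ ω ∈ univ.filter (fun ω => κ (i + 1) ω = κ (i + 1) ω₀), p ω :=
        Finset.sum_nonneg fun ω _ => hM.nonneg ω
      have h5 := h2.trans (mul_le_mul_of_nonneg_right hB h4)
      have := mul_le_mul_of_nonneg_right h5 (sq_nonneg (a i ω₀))
      linarith
    rw [← Finset.mul_sum] at h1
    have h2 : (j₀ : ℝ) * (Q i - ∑ ω ∈ Φ, p ω * a i ω ^ 2) ≤
        ∑ ω, p ω * a i ω ^ 2 * nbad p κ M f (i + 1) s ω := by
      simp only [hQ, hΦ]
      rw [Finset.sum_filter, ← Finset.sum_sub_distrib, Finset.mul_sum]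
      refine Finset.sum_le_sum fun ω _ => ?_
      have q2 := mul_nonneg (hM.nonneg ω) (sq_nonneg (a i ω))
      split_ifs with c
      · have : (0 : ℝ) ≤ nbad p κ M f (i + 1) s ω := Nat.cast_nonneg _
        have := mul_nonneg q2 this
        linarith
      · have : (j₀ : ℝ) ≤ nbad p κ M f (i + 1) s ω := by exact_mod_cast not_lt.1 c
        have := mul_le_mul_of_nonneg_left this q2
        linarith
    have h3 : (0 : ℝ) ≤ j₀ := Nat.cast_nonneg _
    have h4 : Q i / 2 ≤ Q i - ∑ ω ∈ Φ, p ω * a i ω ^ 2 := by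
      simp only [hQ] at h1 ⊢
      linarith
    have := mul_le_mul_of_nonneg_left h4 h3
    linarith
  have sub : ∀ c : ℕ → ℕ, (∀ i < s, c i + s ≤ n) →
      ∑ i ∈ range s, ∑ k ∈ range s, E i (c i + k) ≤ Δ := by
    intro c hc
    calc _ ≤ ∑ i ∈ range s, ∑ j ∈ range n, E i j := Finset.sum_le_sum fun i hi =>
          sum_shift_le (E i) (hE0 i) (hc i (Finset.mem_range.1 hi))
      _ ≤ _ := Finset.sum_le_sum_of_subset_of_nonneg (Finset.range_mono (by omega))
          fun i _ _ => Finset.sum_nonneg fun j _ => hE0 i j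
  have step4 : (j₀ : ℝ) / 2 * ∑ i ∈ range s, Q i ≤ 904 * Δ := by
    refine le_trans ?_ (mul_le_mul_of_nonneg_left (sub (fun i => i + 1) fun i hi => by omega)
      (by norm_num))
    rw [Finset.mul_sum, Finset.mul_sum]
    refine Finset.sum_le_sum fun i _ => (step3 i).trans ?_
    rw [Finset.mul_sum]
    refine le_trans (le_of_eq ?_) (Finset.sum_le_sum fun k _ => step2 i (i + 1 + k) (by omega))
    rw [Finset.sum_comm]
    refine Finset.sum_congr rfl fun ω _ => ?_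
    rw [← Finset.mul_sum]
    congr 1
    simp only [nbad, Nat.cast_sum, Nat.cast_ite, Nat.cast_zero, Nat.cast_one]
  have step5 : (s : ℝ) * ∑ k ∈ range s, Q (s + k) ≤ 2 * s * ∑ i ∈ range s, Q i + 4 * Δ := by
    have h1 : ∀ i j, Q j ≤ 2 * Q i + 4 * E i j := by
      intro i j
      simp only [hQ, hE, Finset.mul_sum, ← Finset.sum_add_distrib]
      refine Finset.sum_le_sum fun ω _ => ?_
      have h2 : a j ω ^ 2 ≤ 2 * a i ω ^ 2 + 4 * e i j ω := by
        simp only [he]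
        have := mul_nonneg (ha0 i ω) (sub_nonneg.2 (hba j ω))
        nlinarith [sq_nonneg (2 * a i ω - a j ω)]
      have := mul_le_mul_of_nonneg_left h2 (hM.nonneg ω)
      linarith
    have h2 : ∑ i ∈ range s, ∑ k ∈ range s, Q (s + k) ≤
        ∑ i ∈ range s, ∑ k ∈ range s, (2 * Q i + 4 * E i (s + k)) :=
      Finset.sum_le_sum fun i _ => Finset.sum_le_sum fun k _ => h1 i (s + k)
    have h3 := sub (fun _ => s) fun i hi => by omega
    simp only [Finset.sum_add_distrib, Finset.sum_const, Finset.card_range, nsmul_eq_mul,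
      ← Finset.mul_sum] at h2
    linarith
  have e1 : ∑ j ∈ range n, Q j = ∑ i ∈ range s, Q i + ∑ k ∈ range s, Q (s + k) := by
    rw [hn, Finset.sum_range_add]
  have e2 : (n : ℝ) = 2 * s := by rw [hn]; push_cast; ring
  have e3 : (s : ℝ) = 200 * j₀ := by rw [hs]; push_cast; ring
  change _ ≤ _ * ∑ j ∈ range n, Q j
  have h6 : (n : ℝ) * ∑ j ∈ range n, Q j ≤ 2169608 * Δ := by
    rw [e1, e2]
    rw [e3] at step5 ⊢
    linarith
  linarith

end Vale.Agent.P125
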