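import Vale.Agent.P125.Geo

namespace Vale.Agent.P125

open Finset Filter

/-- The indicator function of the odd numbers below `2 k`. -/
noncomputable def odd (k : ℕ) : ℕ →₀ ℝ := cut (2 * k) fun x => if x % 2 = 1 then 1 else 0

theorem samp_bound {p C : ℝ} (hp : 0 ≤ p) (hC : 0 ≤ C) (ν : Seminorm ℝ (ℕ →₀ ℝ))
    (hMT : MT ν p C)
    (hS : ∀ (F : ℕ →₀ ℝ) (z : ℕ → ℕ) (N : ℕ), (∀ x, x + 1 < N → z x ≤ z (x + 1)) →
      ν (cut N fun x => F (z x)) ≤ ν F) (t : ℕ) :
    1 / 2 * (((t + 1 : ℕ) : ℝ) * ν (odd (2 * (t + 1) + 1)) / 2) ^ p ≤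
      C * (t + 1) * (2 * ν (odd (2 * (t + 1) + 1))) ^ p := by
  classical
  obtain ⟨T, hT⟩ : ∃ T, T = t + 1 := ⟨_, rfl⟩
  obtain ⟨q, hq⟩ : ∃ q, q = 4 * T := ⟨_, rfl⟩
  have hq1 : 1 ≤ q := by omega
  have hT0 : (0 : ℝ) < T := by exact_mod_cast (by omega : 0 < T)
  rw [← hT]
  obtain ⟨β, hβ⟩ : ∃ β, β = ν (odd (2 * T + 1)) := ⟨_, rfl⟩
  rw [← hβ]
  have β0 : 0 ≤ β := hβ ▸ apply_nonneg _ _
  have hβ2 : ν (odd (4 * T + 1 + 1)) ≤ 2 * β := by
    have h1 : odd (4 * T + 1 + 1) = odd (2 * T + 1) +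
        cut (2 * (4 * T + 1 + 1)) fun x => odd (2 * T + 1) (x - 2 * (2 * T + 1)) := by
      ext x
      simp only [odd, Finsupp.add_apply, cut_apply]
      split_ifs <;> first | omega | norm_num
    have h2 := hS (odd (2 * T + 1)) (fun x => x - 2 * (2 * T + 1)) (2 * (4 * T + 1 + 1))
      (fun x _ => by omega)
    rw [h1]
    refine (map_add_le_add ν _ _).trans ?_
    linarith
  obtain ⟨ε, hε⟩ : ∃ ε : ℝ, ε = 1 / (16 * T) := ⟨_, rfl⟩
  have ε0 : 0 < ε := by rw [hε]; positivity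
  obtain ⟨n₁, hn₁⟩ : ∃ n₁, n₁ = (q + 1) * (4 * T + 1 + 1) + 1 := ⟨_, rfl⟩
  obtain ⟨W, _, μ, Ω, μ0, μ1, hΩ, hμ⟩ := exists_contractable (ι := Bool × Fin (q + 1)) n₁
    (fun a i => q * (if a.1 then 1 else 0) + aa q (i + a.2))
    (fun a i j h => Nat.add_lt_add_left (aa_strictMono hq1 (Nat.add_lt_add_right h _)) _) ε ε0
  have hG : ∀ ω, ∃ G : ℕ →₀ ℝ, ν G ≤ 2 * β ∧ ∀ m x, m < 2 * (4 * T + 1 + 1) →
      Ω ω (q * m) ≤ x → x < Ω ω (q * (m + 1)) → G x = if m % 2 = 1 then 1 else 0 := by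
    intro ω
    have hθ : StrictMono fun m => Ω ω (q * m) := fun m m' h =>
      hΩ ω (Nat.mul_lt_mul_of_pos_left h hq1)
    have hex : ∀ x, ∃ m, x < Ω ω (q * (m + 1)) := fun x =>
      ⟨x, lt_of_lt_of_le (Nat.lt_succ_self x) (hθ.id_le (x + 1))⟩
    refine ⟨cut (Ω ω (q * (2 * (4 * T + 1 + 1)))) fun x => odd (4 * T + 1 + 1) (Nat.find (hex x)),
      (hS _ _ _ fun x _ => ?_).trans hβ2, fun m x h1 h2 h3 => ?_⟩
    · exact Nat.find_min' _ ((Nat.lt_succ_self x).trans (Nat.find_spec (hex (x + 1))))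
    · have h4 : Nat.find (hex x) = m := by
        rw [Nat.find_eq_iff]
        exact ⟨h3, fun m' hm' => not_lt.2 ((hθ.monotone (Nat.succ_le_of_lt hm')).trans h2)⟩
      rw [cut_apply, if_pos (h3.trans_le (hθ.monotone (Nat.succ_le_of_lt h1))), h4, odd,
        cut_apply, if_pos h1]
  choose G hG1 hG2 using hG
  obtain ⟨N, _, l, y, l0, l1, hl⟩ := exists_folner
    (univ.image fun a : Bool × W => if a.1 then 0 else G a.2) ε ε0
  let E := (W × N) × Fin (q + 1) × Fin (q + 1) × Bool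
  have hinv : Function.Involutive fun e : E => ((e.1, e.2.2.1, e.2.1, !e.2.2.2) : E) :=
    fun e => by simp
  let rev : E ≃ E := Function.Involutive.toPerm _ hinv
  have hd : (0 : ℝ) < ((q + 1 : ℕ) : ℝ) := by positivity
  have blk : ∀ (ω : W) (n : N) (b : Bool), Blk q (4 * T + 1) (Ω ω) (if b then 1 else 0)
      (if b then 0 else -1)
      (y n + (if (!b) then 0 else G ω) - (y n + (if b then 0 else G ω)) : ℕ →₀ ℝ) := by
    intro ω n b m x h1 h2 h3
    have := hG2 ω m x h1 h2 h3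
    cases b
    · simp only [Bool.not_false, if_true, Bool.false_eq_true, if_false, add_zero,
        Finsupp.sub_apply, Finsupp.add_apply, this]
      split_ifs <;> first | omega | ring
    · simp only [Bool.not_true, if_true, Bool.false_eq_true, if_false, add_zero,
        Finsupp.sub_apply, Finsupp.add_apply, this]
      ring
  have heps : ∀ b : Bool, (if b then 1 else 0) + (if (!b) then 1 else 0) = 1 := by
    intro b
    cases b <;> rfl
  have main := chain_gen ν (apply_nonneg ν) hp hC hMT (S := (Fin n₁ → ℕ) × (ℕ →₀ ℝ)) (E := E)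
    rev hinv (fun e =>
      (fun i => cfg q (Ω e.1.1) (if e.2.2.2 then 1 else 0) e.2.1 i,
        y e.1.2 + if e.2.2.2 then 0 else G e.1.1))
    (fun e => μ e.1.1 * l e.1.2 / (2 * ((q + 1 : ℕ) : ℝ) ^ 2))
    (fun e => div_nonneg (mul_nonneg (μ0 _) (l0 _)) (by positivity)) (fun e => rfl) ?_
    (d := q + 1) (by omega) (fun e => e.2.1) Prod.snd (2 * β) (T * β / 2)
    (4 * ε / ((q + 1 : ℕ) : ℝ)) t (by positivity) ?_
    (fun s v e => GInv q (4 * T + 1) s v
      (cfg q (Ω e.1.1) (if (!e.2.2.2) then 1 else 0) e.2.2.1) e.2.2.1) ?_ ?_ ?_ ?_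
  · refine le_trans (mul_le_mul_of_nonneg_right ?_ (Real.rpow_nonneg (by positivity) _)) main
    have h1 : (t : ℝ) ≤ T := by exact_mod_cast (by omega : t ≤ T)
    have h2 : 1 / ((q + 1 : ℕ) : ℝ) ≤ 1 / (4 * T) := by
      apply one_div_le_one_div_of_le (by positivity)
      rw [hq]
      push_cast
      linarith
    have h3 : ((q + 1 : ℕ) : ℝ) * (4 * ε / ((q + 1 : ℕ) : ℝ)) = 1 / (4 * T) := by
      rw [hε]
      field_simp
      ring
    rw [h3]
    have h4 : (t : ℝ) * (1 / ((q + 1 : ℕ) : ℝ) + 1 / (4 * T)) ≤ T * (1 / (4 * T) + 1 / (4 * T)) :=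
      mul_le_mul h1 (by linarith) (by positivity) hT0.le
    have h5 : (T : ℝ) * (1 / (4 * T) + 1 / (4 * T)) = 1 / 2 := by
      field_simp
      ring
    linarith
  · have h1 : ∑ ω, ∑ n, μ ω * l n = 1 := by
      simp only [← Finset.mul_sum, l1, mul_one, μ1]
    rw [← h1]
    simp only [E, Fintype.sum_prod_type (α₁ := W × N), Finset.sum_const, Finset.card_univ,
      Fintype.card_fin, Fintype.card_bool, Fintype.card_prod, nsmul_eq_mul]
    rw [Fintype.sum_prod_type]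
    refine Finset.sum_congr rfl fun ω _ => Finset.sum_congr rfl fun n _ => ?_
    push_cast
    field_simp
  · rintro ⟨⟨ω, n⟩, o, o', b⟩
    cases b
    · show ν (y n + 0 - (y n + G ω)) ≤ _
      rw [add_sub_add_left_eq_sub, zero_sub, map_neg_eq_map]
      exact hG1 ω
    · show ν (y n + G ω - (y n + 0)) ≤ _
      rw [add_sub_add_left_eq_sub, sub_zero]
      exact hG1 ω
  · rintro ⟨⟨ω, n⟩, o, o', b⟩
    exact inv_base hq1 (hΩ ω) (heps b) (blk ω n b)
  · rintro s v ⟨⟨ω, n⟩, o, o', b⟩ ⟨⟨ω', n'⟩, j, j', b'⟩ hs hv he ho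
    refine inv_step (o := j) hq1 (hΩ ω') (heps b') (blk ω' n' b') hs hv (fun i hi => ?_)
      (fun h => ho (Fin.ext h)) (Nat.lt_succ_iff.1 j.2) (Nat.lt_succ_iff.1 o'.2)
    exact (congrFun (congrArg Prod.fst he) ⟨i, by omega⟩).symm
  · rintro v ⟨⟨ω, n⟩, o, o', b⟩ hv
    rw [← hT] at hv
    obtain ⟨h, z, hz1, hz2⟩ := inv_final hq1 (by omega) (Nat.lt_succ_iff.1 o'.2)
      (cfg_strictMono hq1 (hΩ ω) _ _) hv
    have h1 := hS v z _ hz1
    have h2 := hS v (fun _ => z 0) (2 * (2 * T + 1)) fun _ _ => le_rfl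
    have h3 : (T : ℝ) • odd (2 * T + 1) = cut (2 * (2 * T + 1)) (fun x => v (z x)) -
        cut (2 * (2 * T + 1)) (fun _ => v (z 0)) := by
      ext x
      simp only [odd, Finsupp.smul_apply, Finsupp.sub_apply, cut_apply, smul_eq_mul]
      by_cases hx : x < 2 * (2 * T + 1)
      · simp only [if_pos hx, hz2 x hx, hz2 0 (by omega)]
        by_cases h1 : x % 2 = 1 <;> simp [h1]
      · simp [hx]
    have h4 := map_sub_le_add ν (cut (2 * (2 * T + 1)) (fun x => v (z x)))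
      (cut (2 * (2 * T + 1)) (fun _ => v (z 0)))
    rw [← h3, map_smul_eq_mul, Real.norm_natCast, ← hβ] at h4
    linarith
  · intro h hh
    let A : Bool → Fin (q + 1) → ℝ := fun b j => ∑ ω, μ ω * ∑ n, l n *
      h (fun i => cfg q (Ω ω) (if b then 1 else 0) j i, y n + if b then 0 else G ω)
    have hA : ∀ b j, |A b j - ∑ ω, μ ω * ∑ n, l n * h (fun i => Ω ω i, y n)| ≤ 2 * ε := by
      intro b j
      have h1 := hμ (b, j) (fun c => ∑ n, l n * h (c, y n)) (fun c => by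
        refine (Finset.abs_sum_le_sum_abs _ _).trans (le_trans (Finset.sum_le_sum fun n _ => ?_)
          l1.le)
        rw [abs_mul, abs_of_nonneg (l0 n)]
        exact mul_le_of_le_one_right (l0 n) (hh _))
      have h2 : |A b j - ∑ ω, μ ω * ∑ n, l n *
          h (fun i => cfg q (Ω ω) (if b then 1 else 0) j i, y n)| ≤ ε := by
        rw [← Finset.sum_sub_distrib]
        refine (Finset.abs_sum_le_sum_abs _ _).trans ?_
        rw [← one_mul ε, ← μ1, Finset.sum_mul]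
        refine Finset.sum_le_sum fun ω _ => ?_
        rw [← mul_sub, abs_mul, abs_of_nonneg (μ0 ω)]
        refine mul_le_mul_of_nonneg_left ?_ (μ0 ω)
        exact hl _ (Finset.mem_image_of_mem _ (Finset.mem_univ (b, ω)))
          (fun v => h (fun i => cfg q (Ω ω) (if b then 1 else 0) j i, v)) fun v => hh _
      have h3 := abs_add_le _ _ |>.trans (add_le_add h2 h1)
      rw [two_mul]
      refine le_of_eq_of_le (congrArg _ ?_) h3
      simp only [cfg]
      ring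
    have hE : ∀ j, ∑ e : E, (if e.2.1 = j then μ e.1.1 * l e.1.2 / (2 * ((q + 1 : ℕ) : ℝ) ^ 2) *
        h (fun i => cfg q (Ω e.1.1) (if e.2.2.2 then 1 else 0) e.2.1 i,
          y e.1.2 + if e.2.2.2 then 0 else G e.1.1) else 0) =
        (A true j + A false j) / (2 * ((q + 1 : ℕ) : ℝ)) := by
      intro j
      simp only [A, E, Fintype.sum_prod_type, Finset.mul_sum, ← Finset.sum_add_distrib,
        Finset.sum_div]
      refine Finset.sum_congr rfl fun ω _ => Finset.sum_congr rfl fun n _ => ?_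
      rw [Finset.sum_eq_single j]
      · trans ∑ _x : Fin (q + 1), μ ω * l n / (2 * ((q + 1 : ℕ) : ℝ) ^ 2) *
          (h (fun i => cfg q (Ω ω) 1 j i, y n + 0) + h (fun i => cfg q (Ω ω) 0 j i, y n + G ω))
        · refine Finset.sum_congr rfl fun x _ => ?_
          simp only [if_true, Fintype.sum_bool, Bool.false_eq_true, if_false]
          ring
        · simp only [if_true, Bool.false_eq_true, if_false]
          rw [Finset.sum_const, Finset.card_univ, Fintype.card_fin, nsmul_eq_mul]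
          field_simp
      · intro j' _ hj
        simp [hj]
      · simp
    intro j j'
    rw [hE, hE]
    have a1 := abs_le.1 (hA true j)
    have a2 := abs_le.1 (hA false j)
    have a3 := abs_le.1 (hA true j')
    have a4 := abs_le.1 (hA false j')
    have : 4 * ε / ((q + 1 : ℕ) : ℝ) = 8 * ε / (2 * ((q + 1 : ℕ) : ℝ)) := by
      field_simp
      ring
    rw [this, ← add_div]
    exact div_le_div_of_nonneg_right (by linarith [a1.2, a2.2, a3.1, a4.1]) (by positivity)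

theorem no_esa {p C : ℝ} (hp : 1 < p) (hC : 0 ≤ C) (ν : Seminorm ℝ (ℕ →₀ ℝ)) (hMT : MT ν p C)
    (hm : ∀ ψ : ℕ → ℕ, Monotone ψ → ∀ a, ν (Finsupp.mapDomain ψ a) ≤ ν a)
    (h1 : 0 < ν (Finsupp.single 0 1 - Finsupp.single 1 1)) : False := by
  obtain ⟨ν', hMT', hS, h0⟩ := exists_samp ν hMT hm h1
  have h2 : Tendsto (fun t : ℕ => ((t + 1 : ℕ) : ℝ) ^ (p - 1)) atTop atTop :=
    (tendsto_rpow_atTop (by linarith)).comp
      (tendsto_natCast_atTop_atTop.comp (tendsto_add_atTop_nat 1))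
  obtain ⟨t, ht⟩ := (h2.eventually_gt_atTop (2 * C * 4 ^ p)).exists
  have h3 := samp_bound (by linarith) hC ν' hMT' hS t
  obtain ⟨β, hβ⟩ : ∃ β, β = ν' (odd (2 * (t + 1) + 1)) := ⟨_, rfl⟩
  have β0 : 0 < β := by
    have h4 := hS (odd (2 * (t + 1) + 1)) (fun _ => 1) 1 fun _ _ => le_rfl
    refine h0.trans_le (le_of_eq_of_le (congrArg ν' ?_) (h4.trans hβ.ge))
    ext x
    rw [cut_apply, odd, cut_apply, if_pos (by omega : 1 < 2 * (2 * (t + 1) + 1)),
      Finsupp.single_apply]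
    split_ifs <;> first | omega | rfl
  rw [← hβ] at h3
  obtain ⟨T, hT⟩ : ∃ T : ℝ, T = ((t + 1 : ℕ) : ℝ) := ⟨_, rfl⟩
  have T0 : 0 < T := by rw [hT]; positivity
  rw [← hT] at ht h3
  rw [show (t : ℝ) + 1 = T by rw [hT]; push_cast; rfl] at h3
  have e1 : (2 * β) ^ p = 4 ^ p * (β / 2) ^ p := by
    rw [← Real.mul_rpow (by norm_num) (by positivity)]
    congr 1
    ring
  have e2 : (T * β / 2) ^ p = T ^ (p - 1) * T * (β / 2) ^ p := by
    rw [← Real.rpow_add_one T0.ne', sub_add_cancel, ← Real.mul_rpow T0.le (by positivity)]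
    congr 1
    ring
  rw [e1, e2] at h3
  have h5 : 0 < T * (β / 2) ^ p := by positivity
  nlinarith

end Vale.Agent.P125
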