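import Vale.Agent.P125.Chain
import Vale.Agent.P125.Contract

namespace Vale.Agent.P125

open Finset Filter

/-- Truncation of a function to `[0, N)`. -/
noncomputable def cut (N : ℕ) (g : ℕ → ℝ) : ℕ →₀ ℝ :=
  Finsupp.onFinset (range N) (fun x => if x < N then g x else 0) (by
    intro x hx
    by_contra h
    exact hx (if_neg (by simpa using h)))

theorem cut_apply (N : ℕ) (g : ℕ → ℝ) (x : ℕ) : cut N g x = if x < N then g x else 0 := rfl

theorem exists_samp {p C : ℝ} (ν : Seminorm ℝ (ℕ →₀ ℝ)) (hMT : MT ν p C)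
    (hm : ∀ ψ : ℕ → ℕ, Monotone ψ → ∀ a, ν (Finsupp.mapDomain ψ a) ≤ ν a)
    (h1 : 0 < ν (Finsupp.single 0 1 - Finsupp.single 1 1)) :
    ∃ ν' : Seminorm ℝ (ℕ →₀ ℝ), MT ν' p C ∧
      (∀ (F : ℕ →₀ ℝ) (z : ℕ → ℕ) (N : ℕ), (∀ x, x + 1 < N → z x ≤ z (x + 1)) →
        ν' (cut N fun x => F (z x)) ≤ ν' F) ∧ 0 < ν' (Finsupp.single 0 1) := by
  classical
  let D : (ℕ →₀ ℝ) →ₗ[ℝ] (ℕ →₀ ℝ) := LinearMap.id - Finsupp.lmapDomain ℝ ℝ Nat.succ
  have hD : ∀ n c, D (Finsupp.single n c) = Finsupp.single n c - Finsupp.single (n + 1) c := by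
    intro n c
    simp [D, Finsupp.mapDomain_single]
  have hH : ∀ (x n : ℕ) (c : ℝ), ∑ i ∈ range (x + 1), (Finsupp.single n c : ℕ →₀ ℝ) i =
      if n ≤ x then c else 0 := by
    intro x n c
    simp only [Finsupp.single_apply, Finset.sum_ite_eq, Finset.mem_range, Nat.lt_succ_iff]
  have hext : ∀ v v' : ℕ →₀ ℝ, (∀ x, ∑ i ∈ range (x + 1), v i = ∑ i ∈ range (x + 1), v' i) →
      v = v' := by
    intro v v' h
    ext x
    rcases x with _ | x
    · simpa using h 0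
    · have h1 := h (x + 1)
      rw [Finset.sum_range_succ, Finset.sum_range_succ _ (x + 1), h x] at h1
      exact add_left_cancel h1
  have key : ∀ (z ψ : ℕ → ℕ) (N x : ℕ), (∀ n, ψ n ≤ x ↔ N ≤ x ∨ n ≤ z x) → ∀ (F : ℕ →₀ ℝ),
      ∑ i ∈ range (x + 1), Finsupp.mapDomain ψ (D F) i = if x < N then F (z x) else 0 := by
    intro z ψ N x hψ F
    induction F using Finsupp.induction_linear with
    | zero => simp
    | add F F' ih ih' =>
      simp only [map_add, Finsupp.mapDomain_add, Finsupp.add_apply, Finset.sum_add_distrib, ih,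
        ih']
      split_ifs <;> simp
    | single n c =>
      rw [hD, sub_eq_add_neg, ← Finsupp.single_neg, Finsupp.mapDomain_add,
        Finsupp.mapDomain_single, Finsupp.mapDomain_single]
      simp only [Finsupp.add_apply, Finset.sum_add_distrib, hH, hψ]
      rw [Finsupp.single_apply]
      by_cases hx : x < N
      · have hx' : ¬ N ≤ x := by omega
        simp only [hx, hx', false_or, if_true]
        rcases lt_trichotomy n (z x) with h | h | h
        · rw [if_pos h.le, if_pos (by omega), if_neg h.ne]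
          ring
        · rw [if_pos h.le, if_neg (by omega), if_pos h]
          ring
        · rw [if_neg (by omega), if_neg (by omega), if_neg (by omega)]
          ring
      · have hx' : N ≤ x := by omega
        simp [hx, hx']
  refine ⟨ν.comp D, ?_, ?_, ?_⟩
  · intro S _ _ P π a1 a2 a3 a4 a5 f t ht
    have := hMT S P π a1 a2 a3 a4 a5 (fun x => D (f x)) t ht
    simpa only [Seminorm.comp_apply, map_sub] using this
  · intro F z N hz
    have hz' : ∀ x y, x ≤ y → y < N → z x ≤ z y := by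
      intro x y hxy
      induction hxy with
      | refl => exact fun _ => le_rfl
      | step h ih => exact fun hy => (ih (by omega)).trans (hz _ hy)
    have hex : ∀ n, ∃ x, N ≤ x ∨ n ≤ z x := fun n => ⟨N, Or.inl le_rfl⟩
    have hψ : ∀ n x, Nat.find (hex n) ≤ x ↔ N ≤ x ∨ n ≤ z x := by
      intro n x
      refine ⟨fun h => ?_, fun h => Nat.find_min' _ h⟩
      by_cases hx : N ≤ x
      · exact Or.inl hx
      · rcases Nat.find_spec (hex n) with h' | h'
        · omega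
        · exact Or.inr (h'.trans (hz' _ _ h (by omega)))
    have hmon : Monotone fun n => Nat.find (hex n) := by
      intro n n' h
      refine (hψ _ _).2 ?_
      rcases Nat.find_spec (hex n') with h' | h'
      · exact Or.inl h'
      · exact Or.inr (h.trans h')
    have := hm _ hmon (D F)
    rw [Seminorm.comp_apply, Seminorm.comp_apply]
    refine le_of_eq_of_le (congrArg ν (hext _ _ fun x => ?_)) this
    rw [key z _ N x (fun n => hψ n x) F]
    have h2 := key id id (x + 1) x (fun n => by simp) (cut N fun x => F (z x))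
    rw [Finsupp.mapDomain_id, if_pos (Nat.lt_succ_self x)] at h2
    exact h2
  · rw [Seminorm.comp_apply, hD]
    exact h1

/-- The index map of a configuration: per period one long arc and `q` short arcs. -/
def aa (q i : ℕ) : ℕ :=
  2 * q * (i / (q + 1)) + if i % (q + 1) = 0 then 0 else q + i % (q + 1) - 1

theorem aa_eq {q u r : ℕ} (hr : r ≤ q) :
    aa q ((q + 1) * u + r) = 2 * q * u + if r = 0 then 0 else q + r - 1 := by
  unfold aa
  rw [Nat.mul_add_mod, Nat.mod_eq_of_lt (by omega : r < q + 1), Nat.mul_add_div (by omega),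
    Nat.div_eq_of_lt (by omega : r < q + 1), add_zero]

theorem aa_long {q u i : ℕ} (hq : 1 ≤ q) (hi : i = (q + 1) * u) :
    aa q i = q * (2 * u) ∧ aa q (i + 1) = q * (2 * u + 1) := by
  have h1 := aa_eq (q := q) (u := u) (r := 0) (by omega)
  have h2 := aa_eq (q := q) (u := u) (r := 1) hq
  simp only [add_zero, if_true] at h1
  rw [if_neg (by omega)] at h2
  subst hi
  rw [h1, h2]
  constructor
  · ring
  · rw [Nat.add_sub_cancel]
    ring

theorem aa_short {q u r i : ℕ} (h1 : 1 ≤ r) (hr : r ≤ q) (hi : i = (q + 1) * u + r) :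
    aa q i + 1 = q * (2 * u + 1) + r ∧ aa q (i + 1) = q * (2 * u + 1) + r := by
  subst hi
  constructor
  · rw [aa_eq hr, if_neg (by omega)]
    have : q * (2 * u + 1) = 2 * q * u + q := by ring
    omega
  · rcases hr.lt_or_eq with h | h
    · rw [add_assoc, aa_eq (by omega), if_neg (by omega)]
      have : q * (2 * u + 1) = 2 * q * u + q := by ring
      omega
    · subst h
      have := aa_eq (q := r) (u := u + 1) (r := 0) (by omega)
      rw [show (r + 1) * u + r + 1 = (r + 1) * (u + 1) + 0 by ring, this]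
      simp only [if_true]
      ring

theorem aa_strictMono {q : ℕ} (hq : 1 ≤ q) : StrictMono (aa q) := by
  refine strictMono_nat_of_lt_succ fun i => ?_
  have hi := (Nat.div_add_mod i (q + 1)).symm
  have hr : i % (q + 1) ≤ q := Nat.lt_succ_iff.1 (Nat.mod_lt _ (by omega))
  rcases Nat.eq_zero_or_pos (i % (q + 1)) with h | h
  · rw [h, add_zero] at hi
    obtain ⟨h1, h2⟩ := aa_long hq hi
    rw [h1, h2]
    nlinarith
  · obtain ⟨h1, h2⟩ := aa_short h hr hi
    omega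

/-- Configurations. -/
def cfg (q : ℕ) (Ω : ℕ → ℕ) (ε o i : ℕ) : ℕ := Ω (q * ε + aa q (i + o))

/-- The invariant along non-backtracking paths. -/
def GInv (q U s : ℕ) (v : ℕ → ℝ) (c : ℕ → ℕ) (o : ℕ) : Prop :=
  ∃ h : ℝ, ∀ u, s ≤ u → u + s ≤ U →
    (∀ i r, 1 ≤ r → r ≤ q → i + o = (q + 1) * u + r → ∀ x, c i ≤ x → x < c (i + 1) →
      v x = h + s) ∧
    ∀ i, i + o = (q + 1) * u → ∃ x, c i ≤ x ∧ x < c (i + 1) ∧ v x = h

/-- The step vector is `κ + 1` on blocks of parity `ε` and `κ` on the others. -/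
def Blk (q U : ℕ) (Ω : ℕ → ℕ) (ε : ℕ) (κ : ℝ) (g : ℕ → ℝ) : Prop :=
  ∀ m x, m < 2 * (U + 1) → Ω (q * m) ≤ x → x < Ω (q * (m + 1)) →
    g x = κ + if m % 2 = ε then 1 else 0

theorem cfg_long {q u i ε o : ℕ} (Ω : ℕ → ℕ) (hq : 1 ≤ q) (hi : i + o = (q + 1) * u) :
    cfg q Ω ε o i = Ω (q * (2 * u + ε)) ∧ cfg q Ω ε o (i + 1) = Ω (q * (2 * u + ε + 1)) := by
  obtain ⟨h1, h2⟩ := aa_long hq hi
  unfold cfg
  rw [add_right_comm i 1 o, h1, h2]
  constructor <;> congr 1 <;> ring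

theorem cfg_short {q u r i ε o : ℕ} {Ω : ℕ → ℕ} (hΩ : StrictMono Ω) (h1 : 1 ≤ r) (hr : r ≤ q)
    (hi : i + o = (q + 1) * u + r) :
    Ω (q * (2 * u + ε + 1)) ≤ cfg q Ω ε o i ∧ cfg q Ω ε o (i + 1) ≤ Ω (q * (2 * u + ε + 2)) := by
  obtain ⟨h2, h3⟩ := aa_short h1 hr hi
  unfold cfg
  rw [add_right_comm i 1 o, h3]
  have e1 : q * (2 * u + ε + 1) = q * ε + q * (2 * u + 1) := by ring
  have e2 : q * (2 * u + ε + 2) = q * ε + q * (2 * u + 1) + q := by ring
  constructor <;> apply hΩ.monotone <;> omega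

theorem cfg_strictMono {q : ℕ} (hq : 1 ≤ q) {Ω : ℕ → ℕ} (hΩ : StrictMono Ω) (ε o : ℕ) :
    StrictMono (cfg q Ω ε o) := fun i j h =>
  hΩ (Nat.add_lt_add_left (aa_strictMono hq (Nat.add_lt_add_right h o)) _)

theorem inv_base {q U ε ε' o' : ℕ} (hq : 1 ≤ q) {Ω : ℕ → ℕ} (hΩ : StrictMono Ω)
    (hε : ε + ε' = 1) {κ : ℝ} {g : ℕ → ℝ} (hg : Blk q U Ω ε κ g) :
    GInv q U 1 g (cfg q Ω ε' o') o' := by
  refine ⟨κ, fun u h1 h2 => ⟨fun i r r1 r2 hi x x1 x2 => ?_, fun i hi => ?_⟩⟩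
  · obtain ⟨a1, a2⟩ := cfg_short (ε := ε') hΩ r1 r2 hi
    rw [hg (2 * u + ε' + 1) x (by omega) (a1.trans x1) (x2.trans_le a2), if_pos (by omega)]
    simp
  · obtain ⟨a1, a2⟩ := cfg_long (ε := ε') Ω hq hi
    refine ⟨_, le_rfl, cfg_strictMono hq hΩ _ _ (Nat.lt_succ_self i), ?_⟩
    rw [hg (2 * u + ε') _ (by omega) a1.ge
      (a2 ▸ cfg_strictMono hq hΩ _ _ (Nat.lt_succ_self i)), if_neg (by omega), add_zero]

theorem inv_step {q U ε ε' o o' o'' s : ℕ} (hq : 1 ≤ q) {Ω : ℕ → ℕ} (hΩ : StrictMono Ω)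
    (hε : ε + ε' = 1) {κ : ℝ} {g : ℕ → ℝ} (hg : Blk q U Ω ε κ g) {v : ℕ → ℝ} {c : ℕ → ℕ}
    (hs : 1 ≤ s) (hv : GInv q U s v c o'') (hc : ∀ i ≤ (q + 1) * (U + 1), c i = cfg q Ω ε o i)
    (ho : o ≠ o'') (o1 : o ≤ q) (o2 : o'' ≤ q) :
    GInv q U (s + 1) (fun x => v x + g x) (cfg q Ω ε' o') o' := by
  obtain ⟨h, hv⟩ := hv
  refine ⟨h + κ, fun u h1 h2 => ⟨fun i r r1 r2 hi x x1 x2 => ?_, fun i hi => ?_⟩⟩
  · obtain ⟨a1, a2⟩ := cfg_short (ε := ε') hΩ r1 r2 hi
    have e1 := hg (2 * u + ε' + 1) x (by omega) (a1.trans x1) (x2.trans_le a2)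
    rw [if_pos (by omega)] at e1
    obtain ⟨u₀, hu₀⟩ : ∃ u₀, u + ε' = u₀ + 1 := ⟨u + ε' - 1, by omega⟩
    have e0 : (q + 1) * (u₀ + 1) = (q + 1) * u₀ + q + 1 := by ring
    obtain ⟨i₀, hi₀⟩ : ∃ i₀, i₀ + o = (q + 1) * (u₀ + 1) := ⟨(q + 1) * (u₀ + 1) - o, by omega⟩
    obtain ⟨b1, b2⟩ := cfg_long (ε := ε) Ω hq hi₀
    have b3 : (q + 1) * (u₀ + 1) + (q + 1) ≤ (q + 1) * (U + 1) := by
      rw [← Nat.mul_succ]
      exact Nat.mul_le_mul_left _ (by omega)
    rw [← hc _ (by omega)] at b1 b2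
    rw [show 2 * (u₀ + 1) + ε = 2 * u + ε' + 1 by omega] at b1 b2
    have e2 : v x = h + s := by
      rcases lt_or_gt_of_ne ho with h3 | h3
      · exact (hv (u₀ + 1) (by omega) (by omega)).1 i₀ (o'' - o) (by omega) (by omega) (by omega)
          x (b1 ▸ a1.trans x1) (b2 ▸ x2.trans_le a2)
      · exact (hv u₀ (by omega) (by omega)).1 i₀ (q + 1 + o'' - o) (by omega) (by omega)
          (by omega) x (b1 ▸ a1.trans x1) (b2 ▸ x2.trans_le a2)
    show v x + g x = _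
    rw [e1, e2]
    push_cast
    ring
  · obtain ⟨a1, a2⟩ := cfg_long (ε := ε') Ω hq hi
    obtain ⟨u₀, hu₀⟩ : ∃ u₀, u + ε' = u₀ + 2 := ⟨u + ε' - 2, by omega⟩
    have e0 : (q + 1) * (u₀ + 1) = (q + 1) * u₀ + q + 1 := by ring
    have e0' : (q + 1) * (u₀ + 2) = (q + 1) * (u₀ + 1) + q + 1 := by ring
    have b3 : (q + 1) * (u₀ + 2) + (q + 1) ≤ (q + 1) * (U + 1) := by
      rw [← Nat.mul_succ]
      exact Nat.mul_le_mul_left _ (by omega)
    obtain ⟨i₀, r, u₁, r1, r2, c1, c2, c3, c4⟩ : ∃ i₀ r u₁, 1 ≤ r ∧ r ≤ q ∧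
        i₀ + o = (q + 1) * (u₀ + 1) + r ∧ i₀ + o'' = (q + 1) * u₁ ∧ u₀ + 1 ≤ u₁ ∧ u₁ ≤ u₀ + 2 := by
      rcases lt_or_gt_of_ne ho with h3 | h3
      · exact ⟨(q + 1) * (u₀ + 2) - o'', q + 1 + o - o'', u₀ + 2, by omega, by omega, by omega,
          by omega, by omega, by omega⟩
      · exact ⟨(q + 1) * (u₀ + 1) - o'', o - o'', u₀ + 1, by omega, by omega, by omega,
          by omega, by omega, by omega⟩
    obtain ⟨b1, b2⟩ := cfg_short (ε := ε) hΩ r1 r2 c1
    rw [← hc _ (by omega)] at b1 b2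
    rw [show 2 * (u₀ + 1) + ε + 1 = 2 * u + ε' by omega, ← a1] at b1
    rw [show 2 * (u₀ + 1) + ε + 2 = 2 * u + ε' + 1 by omega, ← a2] at b2
    obtain ⟨x, x1, x2, x3⟩ := (hv u₁ (by omega) (by omega)).2 i₀ c2
    refine ⟨x, b1.trans x1, x2.trans_le b2, ?_⟩
    show v x + g x = _
    rw [hg (2 * u + ε') x (by omega) (a1 ▸ b1.trans x1) (a2 ▸ x2.trans_le b2),
      if_neg (by omega), add_zero, x3]

theorem inv_final {q T o : ℕ} (hq : 1 ≤ q) (hT : 1 ≤ T) (ho : o ≤ q) {v : ℕ → ℝ} {c : ℕ → ℕ}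
    (hc : StrictMono c) (hv : GInv q (4 * T + 1) T v c o) :
    ∃ (h : ℝ) (z : ℕ → ℕ), (∀ x, x + 1 < 2 * (2 * T + 1) → z x ≤ z (x + 1)) ∧
      ∀ x < 2 * (2 * T + 1), v (z x) = h + if x % 2 = 1 then (T : ℝ) else 0 := by
  obtain ⟨h, hv⟩ := hv
  have hi : ∀ w, ∃ i, i + o = (q + 1) * (T + w) := fun w =>
    ⟨(q + 1) * (T + w) - o, by
      have : (q + 1) * 1 ≤ (q + 1) * (T + w) := Nat.mul_le_mul_left _ (by omega)
      omega⟩
  choose i hi using hi
  have hx : ∀ w, ∃ x, w < 2 * T + 1 → c (i w) ≤ x ∧ x < c (i w + 1) ∧ v x = h := by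
    intro w
    by_cases hw : w < 2 * T + 1
    · obtain ⟨x, hx⟩ := (hv (T + w) (by omega) (by omega)).2 (i w) (hi w)
      exact ⟨x, fun _ => hx⟩
    · exact ⟨0, fun h => absurd h hw⟩
  choose y hy using hx
  refine ⟨h, fun x => if x % 2 = 1 then c (i (x / 2) + 1) else y (x / 2), fun x hx => ?_,
    fun x hx => ?_⟩
  · beta_reduce
    by_cases h1 : x % 2 = 1
    · rw [if_pos h1, if_neg (by omega), show (x + 1) / 2 = x / 2 + 1 by omega]
      refine le_trans (hc.monotone ?_) (hy _ (by omega)).1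
      have h2 := hi (x / 2)
      have h3 := hi (x / 2 + 1)
      have h4 : (q + 1) * (T + (x / 2 + 1)) = (q + 1) * (T + x / 2) + q + 1 := by ring
      omega
    · rw [if_neg h1, if_pos (by omega), show (x + 1) / 2 = x / 2 by omega]
      exact (hy _ (by omega)).2.1.le
  · by_cases h1 : x % 2 = 1
    · simp only [if_pos h1]
      have h2 := hi (x / 2)
      exact (hv (T + x / 2) (by omega) (by omega)).1 (i (x / 2) + 1) 1 le_rfl hq (by omega) _
        le_rfl (hc (Nat.lt_succ_self _))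
    · simp only [if_neg h1, add_zero]
      exact (hy _ (by omega)).2.2

end Vale.Agent.P125
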