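import Mathlib

namespace Vale.Agent.P125

open Finset

section
variable {X : Type*} [NormedAddCommGroup X] [NormedSpace ℝ X]

/-- A martingale on a finite weighted probability space with a filtration given by labels. -/
structure IsMart {Ω Λ : Type} [Fintype Ω] (p : Ω → ℝ) (κ : ℕ → Ω → Λ) (M : ℕ → Ω → X) : Prop where
  nonneg : ∀ ω, 0 ≤ p ω
  sum_one : ∑ ω, p ω = 1
  refine : ∀ j ω ω', κ (j + 1) ω = κ (j + 1) ω' → κ j ω = κ j ω'
  meas : ∀ j ω ω', κ j ω = κ j ω' → M j ω = M j ω'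
  mart : ∀ j (φ : Ω → ℝ), (∀ ω ω', κ j ω = κ j ω' → φ ω = φ ω') →
    ∑ ω, (p ω * φ ω) • (M (j + 1) ω - M j ω) = 0

theorem IsMart.refine_le {Ω Λ : Type} [Fintype Ω] {p : Ω → ℝ} {κ : ℕ → Ω → Λ} {M : ℕ → Ω → X}
    (h : IsMart p κ M) {i j : ℕ} (hij : i ≤ j) {ω ω' : Ω} (e : κ j ω = κ j ω') :
    κ i ω = κ i ω' := by
  induction j, hij using Nat.le_induction with
  | base => exact e
  | succ j _ ih => exact ih (h.refine j ω ω' e)

theorem IsMart.mart_le {Ω Λ : Type} [Fintype Ω] {p : Ω → ℝ} {κ : ℕ → Ω → Λ} {M : ℕ → Ω → X}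
    (h : IsMart p κ M) {i j : ℕ} (hij : i ≤ j) (φ : Ω → ℝ)
    (hφ : ∀ ω ω', κ i ω = κ i ω' → φ ω = φ ω') :
    ∑ ω, (p ω * φ ω) • (M j ω - M i ω) = 0 := by
  induction j, hij using Nat.le_induction with
  | base => simp
  | succ j hij ih =>
    have h2 := h.mart j φ (fun ω ω' e => hφ ω ω' (h.refine_le hij e))
    have : ∀ ω, (p ω * φ ω) • (M (j + 1) ω - M i ω) =
        (p ω * φ ω) • (M (j + 1) ω - M j ω) + (p ω * φ ω) • (M j ω - M i ω) := by
      intro ω; rw [← smul_add]; congr 1; abel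
    simp only [this, Finset.sum_add_distrib, h2, ih, add_zero]

/-- Reindexing time by a monotone map. -/
theorem IsMart.comp {Ω Λ : Type} [Fintype Ω] {p : Ω → ℝ} {κ : ℕ → Ω → Λ} {M : ℕ → Ω → X}
    (h : IsMart p κ M) (g : ℕ → ℕ) (hg : Monotone g) :
    IsMart p (fun j => κ (g j)) (fun j => M (g j)) where
  nonneg := h.nonneg
  sum_one := h.sum_one
  refine := fun j _ _ e => h.refine_le (hg (Nat.le_succ j)) e
  meas := fun j ω ω' e => h.meas (g j) ω ω' e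
  mart := fun j φ hφ => h.mart_le (hg (Nat.le_succ j)) φ hφ

theorem IsMart.smul {Ω Λ : Type} [Fintype Ω] {p : Ω → ℝ} {κ : ℕ → Ω → Λ} {M : ℕ → Ω → X}
    (h : IsMart p κ M) (c : ℝ) : IsMart p κ (fun j ω => c • M j ω) where
  nonneg := h.nonneg
  sum_one := h.sum_one
  refine := h.refine
  meas := fun j ω ω' e => by simp only [h.meas j ω ω' e]
  mart := fun j φ hφ => by
    have := h.mart j φ hφ
    have h2 : ∀ ω, (p ω * φ ω) • (c • M (j + 1) ω - c • M j ω) =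
        c • ((p ω * φ ω) • (M (j + 1) ω - M j ω)) := by
      intro ω; rw [← smul_sub, smul_comm]
    simp only [h2, ← Finset.smul_sum, this, smul_zero]

variable (X) in
/-- The `L²` martingale inequality of length `n` with constant `c`. -/
def MP (n : ℕ) (c : ℝ) : Prop :=
  ∀ (Ω Λ : Type) [Fintype Ω] (p : Ω → ℝ) (κ : ℕ → Ω → Λ) (M : ℕ → Ω → X), IsMart p κ M →
    ∑ ω, p ω * ‖M n ω - M 0 ω‖ ^ 2 ≤
      c * ∑ j ∈ range n, ∑ ω, p ω * ‖M (j + 1) ω - M j ω‖ ^ 2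

theorem MP.mono_c {n : ℕ} {c c' : ℝ} (h : MP X n c) (hc : c ≤ c') : MP X n c' := by
  intro Ω Λ _ p κ M hM
  refine (h Ω Λ p κ M hM).trans (mul_le_mul_of_nonneg_right hc ?_)
  exact Finset.sum_nonneg fun j _ => Finset.sum_nonneg fun ω _ =>
    mul_nonneg (hM.nonneg ω) (sq_nonneg _)

theorem MP_one : MP X 1 1 := by
  intro Ω Λ _ p κ M _
  simp

theorem MP.mul {n m : ℕ} {c c' : ℝ} (h : MP X n c) (h' : MP X m c') (hc : 0 ≤ c) :
    MP X (n * m) (c * c') := by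
  intro Ω Λ _ p κ M hM
  have h1 := h Ω Λ p _ _ (hM.comp (fun i => i * m) (fun a b hab => Nat.mul_le_mul_right m hab))
  simp only [zero_mul] at h1
  refine h1.trans ?_
  rw [mul_assoc]
  refine mul_le_mul_of_nonneg_left ?_ hc
  have h2 : ∀ i, ∑ ω, p ω * ‖M ((i + 1) * m) ω - M (i * m) ω‖ ^ 2 ≤
      c' * ∑ j ∈ range m, ∑ ω, p ω * ‖M (i * m + j + 1) ω - M (i * m + j) ω‖ ^ 2 := by
    intro i
    have := h' Ω Λ p _ _ (hM.comp (fun j => i * m + j) (fun a b hab => Nat.add_le_add_left hab _))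
    simp only [add_zero] at this
    rw [add_mul, one_mul]
    simpa only [add_assoc] using this
  refine (Finset.sum_le_sum fun i _ => h2 i).trans (le_of_eq ?_)
  rw [← Finset.mul_sum]
  congr 1
  clear h1 h2 h
  induction n with
  | zero => simp
  | succ n ih =>
    rw [Finset.sum_range_succ, ih, add_mul, one_mul, Finset.sum_range_add]

theorem MP.le {n j : ℕ} {c : ℝ} (h : MP X n c) (hj : j ≤ n) : MP X j c := by
  intro Ω Λ _ p κ M hM
  have h1 := h Ω Λ p _ _ (hM.comp (fun i => min i j) (fun a b hab => min_le_min_right j hab))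
  simp only [min_eq_right hj, Nat.zero_min] at h1
  refine h1.trans (le_of_eq ?_)
  congr 1
  obtain ⟨k, rfl⟩ := Nat.exists_eq_add_of_le hj
  rw [Finset.sum_range_add]
  have e1 : ∑ i ∈ range k, ∑ ω, p ω * ‖M (min (j + i + 1) j) ω - M (min (j + i) j) ω‖ ^ 2 = 0 := by
    refine Finset.sum_eq_zero fun i _ => ?_
    rw [min_eq_right (by omega), min_eq_right (by omega)]
    simp
  rw [e1, add_zero]
  refine Finset.sum_congr rfl fun i hi => ?_
  have := Finset.mem_range.1 hi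
  rw [min_eq_left (by omega), min_eq_left (by omega)]

theorem MP.small {n : ℕ} {γ : ℝ} (hn : 1 ≤ n) (h0 : 0 ≤ γ) (h1 : γ < 1) (h : MP X n (γ * n))
    (ε : ℝ) (hε : 0 < ε) : ∃ N : ℕ, 1 ≤ N ∧ MP X N (ε * N) := by
  have key : ∀ k : ℕ, MP X (n ^ k) (γ ^ k * (n : ℝ) ^ k) := by
    intro k
    induction k with
    | zero => simpa using MP_one
    | succ k ih =>
      have := ih.mul h (by positivity)
      rw [pow_succ]
      convert this using 1
      ring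
  obtain ⟨k, hk⟩ := exists_pow_lt_of_lt_one hε h1
  refine ⟨n ^ k, Nat.one_le_pow _ _ hn, (key k).mono_c ?_⟩
  push_cast
  exact mul_le_mul_of_nonneg_right hk.le (by positivity)

/-- Labels of the glued martingale. -/
def glueK {Ω₁ Λ₁ Ω₂ Λ₂ : Type} (κ₁ : ℕ → Ω₁ → Λ₁) (κ₂ : ℕ → Ω₂ → Λ₂) :
    ℕ → Ω₁ ⊕ Ω₂ → Option (Λ₁ ⊕ Λ₂)
  | 0, _ => none
  | i + 1, ω => some (Sum.map (κ₁ i) (κ₂ i) ω)

/-- Values of the glued martingale. -/
def glueM {Ω₁ Ω₂ : Type} (x : X) (M₁ : ℕ → Ω₁ → X) (M₂ : ℕ → Ω₂ → X) : ℕ → Ω₁ ⊕ Ω₂ → X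
  | 0, _ => x
  | i + 1, ω => Sum.elim (M₁ i) (M₂ i) ω

/-- Gluing two martingales after a first symmetric step. -/
theorem IsMart.glue {Ω₁ Λ₁ Ω₂ Λ₂ : Type} [Fintype Ω₁] [Fintype Ω₂]
    {p₁ : Ω₁ → ℝ} {κ₁ : ℕ → Ω₁ → Λ₁} {M₁ : ℕ → Ω₁ → X}
    {p₂ : Ω₂ → ℝ} {κ₂ : ℕ → Ω₂ → Λ₂} {M₂ : ℕ → Ω₂ → X}
    (h₁ : IsMart p₁ κ₁ M₁) (h₂ : IsMart p₂ κ₂ M₂) (x y : X)
    (e₁ : ∀ ω, M₁ 0 ω = x + y) (e₂ : ∀ ω, M₂ 0 ω = x - y) :
    IsMart (Sum.elim (fun ω => p₁ ω / 2) (fun ω => p₂ ω / 2)) (glueK κ₁ κ₂) (glueM x M₁ M₂) where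
  nonneg := by
    rintro (ω | ω)
    · have := h₁.nonneg ω; simp only [Sum.elim_inl]; positivity
    · have := h₂.nonneg ω; simp only [Sum.elim_inr]; positivity
  sum_one := by
    simp only [Fintype.sum_sum_type, Sum.elim_inl, Sum.elim_inr, ← Finset.sum_div, h₁.sum_one,
      h₂.sum_one]
    norm_num
  refine := by
    rintro (_ | j) ω ω' e
    · rfl
    · rcases ω with ω | ω <;> rcases ω' with ω' | ω' <;>
        simp only [glueK, Sum.map_inl, Sum.map_inr, Option.some.injEq, Sum.inl.injEq,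
          Sum.inr.injEq, reduceCtorEq] at e ⊢
      · exact h₁.refine j ω ω' e
      · exact h₂.refine j ω ω' e
  meas := by
    rintro (_ | j) ω ω' e
    · rfl
    · rcases ω with ω | ω <;> rcases ω' with ω' | ω' <;>
        simp only [glueK, glueM, Sum.map_inl, Sum.map_inr, Option.some.injEq, Sum.inl.injEq,
          Sum.inr.injEq, reduceCtorEq, Sum.elim_inl, Sum.elim_inr] at e ⊢
      · exact h₁.meas j ω ω' e
      · exact h₂.meas j ω ω' e
  mart := by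
    rintro (_ | j) φ hφ
    · have hc : ∀ ω ω', φ ω = φ ω' := fun ω ω' => hφ ω ω' rfl
      have hne : Nonempty Ω₁ := by
        by_contra hn
        rw [not_nonempty_iff] at hn
        have := h₁.sum_one
        simp at this
      obtain ⟨ω₀⟩ := hne
      obtain ⟨c, hc⟩ : ∃ c, ∀ ω, φ ω = c := ⟨φ (Sum.inl ω₀), fun ω => hc _ _⟩
      simp only [glueM, Fintype.sum_sum_type, Sum.elim_inl, Sum.elim_inr, e₁, e₂, hc,
        ← Finset.sum_smul, ← Finset.sum_mul, ← Finset.sum_div,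
        h₁.sum_one, h₂.sum_one, ← smul_add]
      have : x + y - x + (x - y - x) = 0 := by abel
      rw [this, smul_zero]
    · have a1 := h₁.mart j (fun ω => φ (Sum.inl ω) / 2) (fun ω ω' e => by
        rw [hφ (Sum.inl ω) (Sum.inl ω') (by simp [glueK, e])])
      have a2 := h₂.mart j (fun ω => φ (Sum.inr ω) / 2) (fun ω ω' e => by
        rw [hφ (Sum.inr ω) (Sum.inr ω') (by simp [glueK, e])])
      simp only [glueM, Fintype.sum_sum_type, Sum.elim_inl, Sum.elim_inr]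
      have b1 : ∀ ω, p₁ ω / 2 * φ (Sum.inl ω) = p₁ ω * (φ (Sum.inl ω) / 2) := fun ω => by ring
      have b2 : ∀ ω, p₂ ω / 2 * φ (Sum.inr ω) = p₂ ω * (φ (Sum.inr ω) / 2) := fun ω => by ring
      simp only [b1, b2, a1, a2, add_zero]

theorem isMart_const (x : X) :
    IsMart (fun _ : Unit => (1 : ℝ)) (fun _ _ => ()) (fun _ _ => x) where
  nonneg := fun _ => zero_le_one
  sum_one := by simp
  refine := fun _ _ _ _ => rfl
  meas := fun _ _ _ _ => rfl
  mart := fun _ _ _ => by simp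

end

end Vale.Agent.P125
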