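import Vale.Agent.P125.Mart
import Vale.Agent.P125.Defs

namespace Vale.Agent.P125

open Finset Filter Topology

section
variable {X : Type*} [NormedAddCommGroup X] [NormedSpace ℝ X]

/-- Values of the martingale game of length `j` started at `x`. -/
def valSet (K : ℝ) (j : ℕ) (x : X) : Set ℝ :=
  {v | ∃ (Ω Λ : Type) (_ : Fintype Ω) (p : Ω → ℝ) (κ : ℕ → Ω → Λ) (M : ℕ → Ω → X),
    IsMart p κ M ∧ (∀ ω, M 0 ω = x) ∧
    v = ∑ ω, p ω * ‖M j ω‖ ^ 2 - K * ∑ i ∈ range j, ∑ ω, p ω * ‖M (i + 1) ω - M i ω‖ ^ 2}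

theorem mem_valSet_self (K : ℝ) (j : ℕ) (x : X) : ‖x‖ ^ 2 ∈ valSet K j x :=
  ⟨Unit, Unit, inferInstance, _, _, _, isMart_const x, fun _ => rfl, by simp⟩

theorem valSet_le {j : ℕ} {c : ℝ} (h : MP X j c) {x : X} {v : ℝ} (hv : v ∈ valSet (2 * c) j x) :
    v ≤ 2 * ‖x‖ ^ 2 := by
  obtain ⟨Ω, Λ, _, p, κ, M, hM, h0, rfl⟩ := hv
  have h1 := h Ω Λ p κ M hM
  have h2 : ∑ ω, p ω * ‖M j ω‖ ^ 2 ≤ ∑ ω, p ω * (2 * ‖x‖ ^ 2 + 2 * ‖M j ω - M 0 ω‖ ^ 2) := by
    refine Finset.sum_le_sum fun ω _ => mul_le_mul_of_nonneg_left ?_ (hM.nonneg ω)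
    rw [h0]
    have : ‖M j ω‖ ≤ ‖x‖ + ‖M j ω - x‖ := by
      simpa using norm_add_le x (M j ω - x)
    nlinarith [norm_nonneg (M j ω), norm_nonneg x, norm_nonneg (M j ω - x),
      sq_nonneg (‖x‖ - ‖M j ω - x‖)]
  have h3 : ∑ ω, p ω * (2 * ‖x‖ ^ 2 + 2 * ‖M j ω - M 0 ω‖ ^ 2) =
      2 * ‖x‖ ^ 2 + 2 * ∑ ω, p ω * ‖M j ω - M 0 ω‖ ^ 2 := by
    simp only [mul_add, Finset.sum_add_distrib, ← Finset.sum_mul, hM.sum_one, one_mul,
      Finset.mul_sum]
    congr 1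
    exact Finset.sum_congr rfl fun ω _ => by ring
  linarith

theorem valSet_smul {K : ℝ} {j : ℕ} {x : X} {v : ℝ} (hv : v ∈ valSet K j x) (r : ℝ) :
    r ^ 2 * v ∈ valSet K j (r • x) := by
  obtain ⟨Ω, Λ, _, p, κ, M, hM, h0, rfl⟩ := hv
  refine ⟨Ω, Λ, inferInstance, p, κ, _, hM.smul r, fun ω => by simp [h0], ?_⟩
  simp only [← smul_sub, norm_smul, mul_pow, Real.norm_eq_abs, sq_abs, mul_sub, Finset.mul_sum]
  congr 1
  · exact Finset.sum_congr rfl fun ω _ => by ring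
  · exact Finset.sum_congr rfl fun i _ => Finset.sum_congr rfl fun ω _ => by ring

theorem valSet_glue {K : ℝ} {j : ℕ} {x y : X} {v₁ v₂ : ℝ} (h₁ : v₁ ∈ valSet K j (x + y))
    (h₂ : v₂ ∈ valSet K j (x - y)) : (v₁ + v₂) / 2 - K * ‖y‖ ^ 2 ∈ valSet K (j + 1) x := by
  obtain ⟨Ω₁, Λ₁, _, p₁, κ₁, M₁, hM₁, e₁, rfl⟩ := h₁
  obtain ⟨Ω₂, Λ₂, _, p₂, κ₂, M₂, hM₂, e₂, rfl⟩ := h₂
  refine ⟨_, _, inferInstance, _, _, _, hM₁.glue hM₂ x y e₁ e₂, fun ω => rfl, ?_⟩
  rw [Finset.sum_range_succ']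
  simp only [glueM, Fintype.sum_sum_type, Sum.elim_inl, Sum.elim_inr, e₁, e₂,
    Finset.sum_add_distrib]
  have a1 : x + y - x = y := by abel
  have a2 : ‖x - y - x‖ = ‖y‖ := by
    have : x - y - x = -y := by abel
    rw [this, norm_neg]
  simp only [a1, a2, ← Finset.sum_mul, ← Finset.sum_div, hM₁.sum_one, hM₂.sum_one,
    div_mul_eq_mul_div]
  ring

/-- Two-point smoothness estimate at one scale. -/
def Sm (f : X → ℝ) (a b : ℝ) : Prop :=
  ∀ x y, f (x + y) + f (x - y) ≤ 2 * (1 + a) * f x + 2 * b * ‖y‖ ^ 2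

theorem exists_bellman {n : ℕ} {c : ℝ} (hn : 1 ≤ n) (h : MP X n c) :
    ∃ f : X → ℝ, (∀ x, ‖x‖ ^ 2 ≤ f x) ∧ (∀ x, f x ≤ 2 * ‖x‖ ^ 2) ∧
      (∀ (r : ℝ) x, f (r • x) ≤ r ^ 2 * f x) ∧ Sm f (1 / n) (2 * c) := by
  set V : ℕ → X → ℝ := fun j x => sSup (valSet (2 * c) j x) with hV
  have bdd : ∀ j ≤ n, ∀ x : X, BddAbove (valSet (2 * c) j x) :=
    fun j hj x => ⟨_, fun v hv => valSet_le (h.le hj) hv⟩
  have ne : ∀ j, ∀ x : X, (valSet (2 * c) j x).Nonempty := fun j x => ⟨_, mem_valSet_self _ j x⟩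
  have lo : ∀ j ≤ n, ∀ x, ‖x‖ ^ 2 ≤ V j x :=
    fun j hj x => le_csSup (bdd j hj x) (mem_valSet_self _ j x)
  have hi : ∀ j ≤ n, ∀ x, V j x ≤ 2 * ‖x‖ ^ 2 :=
    fun j hj x => csSup_le (ne j x) fun v hv => valSet_le (h.le hj) hv
  have hs : ∀ j ≤ n, ∀ (r : ℝ) x, V j (r • x) ≤ r ^ 2 * V j x := by
    intro j hj r x
    by_cases hr : r = 0
    · have := hi j hj (r • x)
      simpa [hr] using this
    · refine csSup_le (ne j _) fun v hv => ?_
      have h1 := valSet_smul hv r⁻¹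
      rw [smul_smul, inv_mul_cancel₀ hr, one_smul] at h1
      have h2 : r⁻¹ ^ 2 * v ≤ V j x := le_csSup (bdd j hj x) h1
      have h3 : v = r ^ 2 * (r⁻¹ ^ 2 * v) := by field_simp
      rw [h3]
      exact mul_le_mul_of_nonneg_left h2 (sq_nonneg r)
  have hg : ∀ j < n, ∀ x y, V j (x + y) + V j (x - y) ≤
      2 * V (j + 1) x + 2 * (2 * c) * ‖y‖ ^ 2 := by
    intro j hj x y
    have : ∀ v₁ ∈ valSet (2 * c) j (x + y), ∀ v₂ ∈ valSet (2 * c) j (x - y),
        v₁ + v₂ ≤ 2 * V (j + 1) x + 2 * (2 * c) * ‖y‖ ^ 2 := by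
      intro v₁ h₁ v₂ h₂
      have : _ ≤ V (j + 1) x := le_csSup (bdd (j + 1) hj x) (valSet_glue h₁ h₂)
      linarith
    have h3 : ∀ v₂ ∈ valSet (2 * c) j (x - y),
        V j (x + y) ≤ 2 * V (j + 1) x + 2 * (2 * c) * ‖y‖ ^ 2 - v₂ :=
      fun v₂ h₂ => csSup_le (ne j _) fun v₁ h₁ => by linarith [this v₁ h₁ v₂ h₂]
    have h4 : V j (x - y) ≤ 2 * V (j + 1) x + 2 * (2 * c) * ‖y‖ ^ 2 - V j (x + y) :=
      csSup_le (ne j _) fun v₂ h₂ => by linarith [h3 v₂ h₂]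
    linarith
  have hn' : (0 : ℝ) < n := by exact_mod_cast hn
  have flo : ∀ x, ‖x‖ ^ 2 ≤ (∑ j ∈ range n, V j x) / n := by
    intro x
    rw [le_div_iff₀ hn']
    calc ‖x‖ ^ 2 * n = ∑ _j ∈ range n, ‖x‖ ^ 2 := by simp [mul_comm]
      _ ≤ _ := Finset.sum_le_sum fun j hj => lo j (Finset.mem_range.1 hj).le x
  refine ⟨fun x => (∑ j ∈ range n, V j x) / n, flo, ?_, ?_, ?_⟩
  · intro x
    rw [div_le_iff₀ hn']
    calc _ ≤ ∑ _j ∈ range n, 2 * ‖x‖ ^ 2 :=
          Finset.sum_le_sum fun j hj => hi j (Finset.mem_range.1 hj).le x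
      _ = _ := by simp [mul_comm]
  · intro r x
    rw [← mul_div_assoc, Finset.mul_sum]
    exact div_le_div_of_nonneg_right
      (Finset.sum_le_sum fun j hj => hs j (Finset.mem_range.1 hj).le r x) hn'.le
  · intro x y
    have h1 : ∑ j ∈ range n, V j (x + y) + ∑ j ∈ range n, V j (x - y) ≤
        2 * ∑ j ∈ range n, V (j + 1) x + n * (2 * (2 * c) * ‖y‖ ^ 2) := by
      rw [← Finset.sum_add_distrib, Finset.mul_sum]
      calc _ ≤ ∑ j ∈ range n, (2 * V (j + 1) x + 2 * (2 * c) * ‖y‖ ^ 2) :=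
            Finset.sum_le_sum fun j hj => hg j (Finset.mem_range.1 hj) x y
        _ = _ := by simp [Finset.sum_add_distrib]
    have h2 : ∑ j ∈ range n, V (j + 1) x + V 0 x = ∑ j ∈ range n, V j x + V n x := by
      rw [← Finset.sum_range_succ' (fun j => V j x), Finset.sum_range_succ]
    have h3 := lo 0 (Nat.zero_le n) x
    have h4 := hi n le_rfl x
    have h5 := flo x
    simp only
    set S := ∑ j ∈ range n, V j x
    have e : 2 * (1 + 1 / (n : ℝ)) * (S / n) + 2 * (2 * c) * ‖y‖ ^ 2 =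
        (2 * S + 2 * (S / n) + n * (2 * (2 * c) * ‖y‖ ^ 2)) / n := by
      field_simp
    rw [e, ← add_div]
    refine div_le_div_of_nonneg_right ?_ hn'.le
    linarith

/-- Values of the infimal convolution. -/
def icSet (f : ℕ → X → ℝ) (x : X) : Set ℝ :=
  {v | ∃ (N : ℕ) (u : ℕ → X), (∀ m, N ≤ m → u m = 0) ∧ ∑ m ∈ range N, u m = x ∧
    v = ∑ m ∈ range N, 2 ^ (m + 1) * f m (u m)}

theorem exists_infconv (f : ℕ → X → ℝ) (a b : ℕ → ℝ) (ha : ∀ m, 0 ≤ a m)
    (lo : ∀ m x, ‖x‖ ^ 2 ≤ f m x) (hi : ∀ m x, f m x ≤ 2 * ‖x‖ ^ 2)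
    (hs : ∀ m (r : ℝ) x, f m (r • x) ≤ r ^ 2 * f m x) (hSm : ∀ m, Sm (f m) (a m) (b m)) :
    ∃ G : X → ℝ, (∀ x, ‖x‖ ^ 2 ≤ G x) ∧ (∀ x, G x ≤ 4 * ‖x‖ ^ 2) ∧
      (∀ (r : ℝ) x, G (r • x) ≤ r ^ 2 * G x) ∧ ∀ m, Sm G (a m) (2 ^ (m + 1) * b m) := by
  have f0 : ∀ m, f m 0 = 0 := fun m => le_antisymm (by simpa using hi m 0) (by simpa using lo m 0)
  have fnn : ∀ m x, 0 ≤ f m x := fun m x => (sq_nonneg _).trans (lo m x)
  have self : ∀ x, 2 * f 0 x ∈ icSet f x := by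
    intro x
    refine ⟨1, fun m => if m = 0 then x else 0, fun m hm => if_neg (by omega), by simp, by simp⟩
  have low : ∀ x, ∀ v ∈ icSet f x, ‖x‖ ^ 2 ≤ v := by
    rintro x v ⟨N, u, -, rfl, rfl⟩
    have h1 := sq_sum_div_le_sum_sq_div (range N) (fun m => ‖u m‖)
      (g := fun m => (1 / 2 : ℝ) ^ (m + 1)) (fun m _ => by positivity)
    have h2 : ∑ m ∈ range N, (1 / 2 : ℝ) ^ (m + 1) ≤ 1 := by
      have : ∀ N : ℕ, ∑ m ∈ range N, (1 / 2 : ℝ) ^ (m + 1) = 1 - (1 / 2) ^ N := by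
        intro N
        induction N with
        | zero => simp
        | succ N ih => rw [Finset.sum_range_succ, ih]; ring
      rw [this]
      have : (0 : ℝ) ≤ (1 / 2) ^ N := by positivity
      linarith
    have h3 : ‖∑ m ∈ range N, u m‖ ^ 2 ≤ (∑ m ∈ range N, ‖u m‖) ^ 2 :=
      pow_le_pow_left₀ (norm_nonneg _) (norm_sum_le _ _) 2
    rcases Nat.eq_zero_or_pos N with rfl | hN
    · simp
    have h4 : (0 : ℝ) < ∑ m ∈ range N, (1 / 2 : ℝ) ^ (m + 1) :=
      Finset.sum_pos (fun m _ => by positivity) ⟨0, Finset.mem_range.2 hN⟩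
    have h5 : (∑ m ∈ range N, ‖u m‖) ^ 2 ≤
        (∑ m ∈ range N, ‖u m‖) ^ 2 / ∑ m ∈ range N, (1 / 2 : ℝ) ^ (m + 1) := by
      rw [le_div_iff₀ h4]
      exact mul_le_of_le_one_right (sq_nonneg _) h2
    refine h3.trans (h5.trans (h1.trans (Finset.sum_le_sum fun m _ => ?_)))
    rw [one_div, inv_pow, div_inv_eq_mul, mul_comm]
    exact mul_le_mul_of_nonneg_left (lo m _) (by positivity)
  have bdd : ∀ x, BddBelow (icSet f x) := fun x => ⟨_, low x⟩
  have ne : ∀ x, (icSet f x).Nonempty := fun x => ⟨_, self x⟩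
  refine ⟨fun x => sInf (icSet f x), fun x => le_csInf (ne x) (low x), fun x => ?_, ?_, ?_⟩
  · have := csInf_le (bdd x) (self x)
    linarith [hi 0 x]
  · intro r x
    have key : ∀ v ∈ icSet f x, sInf (icSet f (r • x)) ≤ r ^ 2 * v := by
      rintro v ⟨N, u, hu, rfl, rfl⟩
      have : ∑ m ∈ range N, 2 ^ (m + 1) * f m (r • u m) ∈ icSet f (r • ∑ m ∈ range N, u m) :=
        ⟨N, fun m => r • u m, fun m hm => by simp [hu m hm], by rw [Finset.smul_sum], rfl⟩
      refine (csInf_le (bdd _) this).trans ?_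
      rw [Finset.mul_sum]
      refine Finset.sum_le_sum fun m _ => ?_
      have := hs m r (u m)
      have h2 : (0 : ℝ) ≤ 2 ^ (m + 1) := by positivity
      nlinarith
    by_cases hr : r = 0
    · have := key _ (self x)
      simpa [hr] using this
    · have hr2 : 0 < r ^ 2 := by positivity
      rw [mul_comm, ← div_le_iff₀ hr2]
      exact le_csInf (ne x) fun v hv => by rw [div_le_iff₀ hr2, mul_comm]; exact key v hv
  · intro m x y
    have key : ∀ v ∈ icSet f x, sInf (icSet f (x + y)) + sInf (icSet f (x - y)) ≤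
        2 * (1 + a m) * v + 2 * (2 ^ (m + 1) * b m) * ‖y‖ ^ 2 := by
      rintro v ⟨N, u, hu, rfl, rfl⟩
      set N' := max N (m + 1) with hN'
      have hsub : range N ⊆ range N' := Finset.range_mono (le_max_left _ _)
      have hm : m ∈ range N' := Finset.mem_range.2 (lt_of_lt_of_le (Nat.lt_succ_self m)
        (le_max_right _ _))
      have e1 : ∑ k ∈ range N, u k = ∑ k ∈ range N', u k :=
        Finset.sum_subset hsub fun k _ hk => hu k (by simpa using hk)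
      have e2 : ∑ k ∈ range N, 2 ^ (k + 1) * f k (u k) =
          ∑ k ∈ range N', 2 ^ (k + 1) * f k (u k) :=
        Finset.sum_subset hsub fun k _ hk => by rw [hu k (by simpa using hk), f0, mul_zero]
      have mem : ∀ z : X, ∑ k ∈ range N', 2 ^ (k + 1) * f k (u k + if k = m then z else 0) ∈
          icSet f (∑ k ∈ range N, u k + z) := by
        intro z
        refine ⟨N', fun k => u k + if k = m then z else 0, fun k hk => ?_, ?_, rfl⟩
        · have h1 : N ≤ k := (le_max_left _ _).trans hk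
          have h2 : k ≠ m := by have := (le_max_right _ _).trans hk; omega
          simp [hu k h1, h2]
        · rw [Finset.sum_add_distrib, e1, Finset.sum_ite_eq' _ m, if_pos hm]
      have i1 := csInf_le (bdd _) (mem y)
      have i2 := csInf_le (bdd _) (mem (-y))
      rw [← sub_eq_add_neg] at i2
      refine (add_le_add i1 i2).trans ?_
      rw [e2, ← Finset.sum_add_distrib, Finset.mul_sum]
      have e3 : 2 * (2 ^ (m + 1) * b m) * ‖y‖ ^ 2 =
          ∑ k ∈ range N', if k = m then 2 * (2 ^ (m + 1) * b m) * ‖y‖ ^ 2 else 0 := by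
        rw [Finset.sum_ite_eq' _ m, if_pos hm]
      rw [e3, ← Finset.sum_add_distrib]
      refine Finset.sum_le_sum fun k _ => ?_
      have h2 : (0 : ℝ) ≤ 2 ^ (k + 1) := by positivity
      by_cases hk : k = m
      · subst hk
        simp only [if_true]
        have := mul_le_mul_of_nonneg_left (hSm k (u k) y) h2
        rw [sub_eq_add_neg] at this
        linarith
      · simp only [if_neg hk, add_zero]
        have := mul_nonneg (ha m) (mul_nonneg h2 (fnn k (u k)))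
        linarith
    have hpos : 0 < 2 * (1 + a m) := by have := ha m; positivity
    have : (sInf (icSet f (x + y)) + sInf (icSet f (x - y)) -
        2 * (2 ^ (m + 1) * b m) * ‖y‖ ^ 2) / (2 * (1 + a m)) ≤ sInf (icSet f x) :=
      le_csInf (ne x) fun v hv => by
        rw [div_le_iff₀ hpos]; have := key v hv; linarith
    rw [div_le_iff₀ hpos] at this
    simp only
    linarith

/-- Values for the convexification. -/
def cvSet (G : X → ℝ) (x : X) : Set ℝ :=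
  {v | ∃ (ι : Type) (_ : Fintype ι) (_ : Nonempty ι) (u : ι → X), ∑ i, u i = x ∧
    v = ∑ i, √(G (u i))}

theorem exists_convexify (G : X → ℝ) (lo : ∀ x, ‖x‖ ^ 2 ≤ G x) (hi : ∀ x, G x ≤ 4 * ‖x‖ ^ 2)
    (hs : ∀ (r : ℝ) x, G (r • x) ≤ r ^ 2 * G x) :
    ∃ N : Seminorm ℝ X, (∀ x, ‖x‖ ≤ N x) ∧ (∀ x, N x ≤ 2 * ‖x‖) ∧
      ∀ a b, 0 ≤ a → Sm G a b → Sm (fun x => N x ^ 2) a b := by
  have Gnn : ∀ x, 0 ≤ G x := fun x => (sq_nonneg _).trans (lo x)
  have self : ∀ x, √(G x) ∈ cvSet G x := fun x =>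
    ⟨Unit, inferInstance, inferInstance, fun _ => x, by simp, by simp⟩
  have low : ∀ x, ∀ v ∈ cvSet G x, ‖x‖ ≤ v := by
    rintro x v ⟨ι, _, _, u, rfl, rfl⟩
    refine (norm_sum_le _ _).trans (Finset.sum_le_sum fun i _ => ?_)
    exact Real.le_sqrt_of_sq_le (lo _)
  have bdd : ∀ x, BddBelow (cvSet G x) := fun x => ⟨_, low x⟩
  have ne : ∀ x, (cvSet G x).Nonempty := fun x => ⟨_, self x⟩
  have up : ∀ x, sInf (cvSet G x) ≤ 2 * ‖x‖ := by
    intro x
    refine (csInf_le (bdd x) (self x)).trans ?_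
    rw [Real.sqrt_le_iff]
    exact ⟨by positivity, by nlinarith [hi x]⟩
  have lw : ∀ x, ‖x‖ ≤ sInf (cvSet G x) := fun x => le_csInf (ne x) (low x)
  refine ⟨Seminorm.ofSMulLE (fun x => sInf (cvSet G x)) ?_ ?_ ?_, lw, up, ?_⟩
  · exact le_antisymm (by simpa using up 0) (by simpa using lw 0)
  · intro x y
    have key : ∀ v ∈ cvSet G x, ∀ w ∈ cvSet G y, sInf (cvSet G (x + y)) ≤ v + w := by
      rintro v ⟨ι, _, _, u, rfl, rfl⟩ w ⟨ι', _, _, u', rfl, rfl⟩
      refine csInf_le (bdd _) ⟨ι ⊕ ι', inferInstance, inferInstance, Sum.elim u u', ?_, ?_⟩ <;>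
        simp [Fintype.sum_sum_type]
    have h1 : ∀ w ∈ cvSet G y, sInf (cvSet G (x + y)) - w ≤ sInf (cvSet G x) :=
      fun w hw => le_csInf (ne x) fun v hv => by linarith [key v hv w hw]
    have h2 : sInf (cvSet G (x + y)) - sInf (cvSet G x) ≤ sInf (cvSet G y) :=
      le_csInf (ne y) fun w hw => by linarith [h1 w hw]
    linarith
  · intro r x
    have key : ∀ v ∈ cvSet G x, sInf (cvSet G (r • x)) ≤ ‖r‖ * v := by
      rintro v ⟨ι, _, _, u, rfl, rfl⟩
      have : ∑ i, √(G (r • u i)) ∈ cvSet G (r • ∑ i, u i) :=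
        ⟨ι, inferInstance, inferInstance, fun i => r • u i, by rw [Finset.smul_sum], rfl⟩
      refine (csInf_le (bdd _) this).trans ?_
      rw [Finset.mul_sum]
      refine Finset.sum_le_sum fun i _ => ?_
      rw [Real.sqrt_le_iff]
      refine ⟨by positivity, ?_⟩
      rw [mul_pow, Real.sq_sqrt (Gnn _), Real.norm_eq_abs, sq_abs]
      exact hs r _
    by_cases hr : r = 0
    · have := key _ (self x)
      simpa [hr] using this
    · have hr2 : 0 < ‖r‖ := norm_pos_iff.2 hr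
      rw [mul_comm, ← div_le_iff₀ hr2]
      exact le_csInf (ne x) fun v hv => by rw [div_le_iff₀ hr2, mul_comm]; exact key v hv
  · intro a b ha hSm x y
    change sInf (cvSet G (x + y)) ^ 2 + sInf (cvSet G (x - y)) ^ 2 ≤
      2 * (1 + a) * sInf (cvSet G x) ^ 2 + 2 * b * ‖y‖ ^ 2
    have key : ∀ v ∈ cvSet G x, ∀ δ : ℝ, 0 < δ →
        sInf (cvSet G (x + y)) ^ 2 + sInf (cvSet G (x - y)) ^ 2 ≤
          2 * (1 + a) * (v + δ) ^ 2 + 2 * b * ‖y‖ ^ 2 := by
      rintro v ⟨ι, _, _, u, rfl, rfl⟩ δ hδ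
      have hk : (0 : ℝ) < Fintype.card ι := by exact_mod_cast Fintype.card_pos
      set s : ι → ℝ := fun i => √(G (u i)) + δ / Fintype.card ι with hsdef
      have spos : ∀ i, 0 < s i := fun i => by simp only [hsdef]; positivity
      have ssum : ∑ i, s i = ∑ i, √(G (u i)) + δ := by
        simp only [hsdef, Finset.sum_add_distrib, Finset.sum_const, Finset.card_univ, nsmul_eq_mul]
        field_simp
      set T := ∑ i, √(G (u i)) + δ with hT
      have Tpos : 0 < T := by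
        rw [← ssum]; exact Finset.sum_pos (fun i _ => spos i) Finset.univ_nonempty
      have lsum : ∑ i, s i / T = 1 := by rw [← Finset.sum_div, ssum, div_self Tpos.ne']
      have lpos : ∀ i, 0 < s i / T := fun i => div_pos (spos i) Tpos
      have est : ∀ z : X, sInf (cvSet G (∑ i, u i + z)) ^ 2 ≤
          ∑ i, G (u i + (s i / T) • z) / (s i / T) := by
        intro z
        have mem : ∑ i, √(G (u i + (s i / T) • z)) ∈ cvSet G (∑ i, u i + z) :=
          ⟨ι, inferInstance, inferInstance, fun i => u i + (s i / T) • z, by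
            rw [Finset.sum_add_distrib, ← Finset.sum_smul, lsum, one_smul], rfl⟩
        have h1 := csInf_le (bdd _) mem
        have h0 : 0 ≤ sInf (cvSet G (∑ i, u i + z)) := (norm_nonneg _).trans (lw _)
        refine (pow_le_pow_left₀ h0 h1 2).trans ?_
        have h2 := sq_sum_div_le_sum_sq_div Finset.univ (fun i => √(G (u i + (s i / T) • z)))
          (g := fun i => s i / T) (fun i _ => lpos i)
        rw [lsum, div_one] at h2
        refine h2.trans (le_of_eq (Finset.sum_congr rfl fun i _ => ?_))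
        rw [Real.sq_sqrt (Gnn _)]
      have i1 := est y
      have i2 := est (-y)
      rw [← sub_eq_add_neg] at i2
      refine (add_le_add i1 i2).trans ?_
      rw [← Finset.sum_add_distrib]
      have e : 2 * (1 + a) * T ^ 2 + 2 * b * ‖y‖ ^ 2 =
          ∑ i, (2 * (1 + a) * T ^ 2 + 2 * b * ‖y‖ ^ 2) * (s i / T) := by
        rw [← Finset.mul_sum, lsum, mul_one]
      rw [e]
      refine Finset.sum_le_sum fun i _ => ?_
      rw [← add_div, div_le_iff₀ (lpos i), smul_neg, ← sub_eq_add_neg]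
      refine (hSm (u i) ((s i / T) • y)).trans ?_
      rw [norm_smul, mul_pow, Real.norm_eq_abs, sq_abs]
      have h3 : G (u i) ≤ s i ^ 2 := by
        rw [← Real.sq_sqrt (Gnn (u i))]
        refine pow_le_pow_left₀ (Real.sqrt_nonneg _) ?_ 2
        simp only [hsdef]
        have : 0 < δ / Fintype.card ι := by positivity
        linarith
      have h4 : T ^ 2 * (s i / T * (s i / T)) = s i ^ 2 := by field_simp
      have h5 : 0 ≤ 2 * (1 + a) := by positivity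
      have h6 := mul_le_mul_of_nonneg_left h3 h5
      calc _ ≤ 2 * (1 + a) * s i ^ 2 + 2 * b * ((s i / T) ^ 2 * ‖y‖ ^ 2) := by linarith
        _ = _ := by rw [← h4]; ring
    have cont : Tendsto (fun δ : ℝ => 2 * (1 + a) * (sInf (cvSet G x) + 2 * δ) ^ 2 +
        2 * b * ‖y‖ ^ 2) (𝓝[>] 0)
        (𝓝 (2 * (1 + a) * (sInf (cvSet G x) + 2 * 0) ^ 2 + 2 * b * ‖y‖ ^ 2)) := by
      refine tendsto_nhdsWithin_of_tendsto_nhds (Continuous.tendsto (by fun_prop) 0)
    rw [mul_zero, add_zero] at cont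
    refine ge_of_tendsto cont ?_
    filter_upwards [self_mem_nhdsWithin] with δ hδ
    have hδ' : (0 : ℝ) < δ := hδ
    obtain ⟨v, hv, hv2⟩ := exists_lt_of_csInf_lt (ne x) (lt_add_of_pos_right _ hδ')
    refine (key v hv δ hδ').trans ?_
    have h0 : 0 ≤ v + δ := by linarith [(norm_nonneg x).trans (low x v hv)]
    have h1 : (v + δ) ^ 2 ≤ (sInf (cvSet G x) + 2 * δ) ^ 2 :=
      pow_le_pow_left₀ h0 (by linarith) 2
    have h5 : 0 ≤ 2 * (1 + a) := by positivity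
    have := mul_le_mul_of_nonneg_left h1 h5
    linarith

theorem smooth_of_Sm (N : Seminorm ℝ X) (lo : ∀ x, ‖x‖ ≤ N x)
    (h : ∀ η : ℝ, 0 < η → ∃ a b : ℝ, 0 < a ∧ 0 ≤ b ∧ a * b ≤ η ^ 2 ∧ Sm (fun x => N x ^ 2) a b) :
    Tendsto (fun τ : ℝ => smoothModulus N τ / τ) (𝓝[>] 0) (𝓝 0) := by
  rw [Metric.tendsto_nhdsWithin_nhds]
  intro ε hε
  obtain ⟨a, b, ha, hb, hab, hSm⟩ := h (ε / 2) (by positivity)
  set η := ε / 2 with hη
  have hη0 : 0 < η := by positivity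
  set τ₀ := a / η with hτ₀
  have hτ0 : 0 < τ₀ := by positivity
  refine ⟨τ₀, hτ0, fun τ hτ hd => ?_⟩
  have hτ' : (0 : ℝ) < τ := hτ
  rw [Real.dist_eq, sub_zero, abs_of_pos hτ'] at hd
  have big : ∀ x y : X, N x = 1 → N y = 1 →
      (N (x + τ₀ • y) + N (x - τ₀ • y)) / 2 - 1 ≤ η * τ₀ := by
    intro x y hx hy
    have h1 := hSm x (τ₀ • y)
    simp only [hx] at h1
    have h2 : ‖τ₀ • y‖ ^ 2 ≤ τ₀ ^ 2 := by
      rw [norm_smul, Real.norm_eq_abs, abs_of_pos hτ0]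
      have : ‖y‖ ≤ 1 := hy ▸ lo y
      have h3 : τ₀ * ‖y‖ ≤ τ₀ := mul_le_of_le_one_right hτ0.le this
      exact pow_le_pow_left₀ (by positivity) h3 2
    have h3 : b * τ₀ ^ 2 ≤ a := by
      rw [hτ₀, div_pow, ← mul_div_assoc, div_le_iff₀ (by positivity)]
      nlinarith
    have h4 : η * τ₀ = a := by rw [hτ₀]; field_simp
    rw [h4]
    have h5 := mul_le_mul_of_nonneg_left h2 hb
    nlinarith [sq_nonneg (N (x + τ₀ • y) - 1), sq_nonneg (N (x - τ₀ • y) - 1)]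
  have bound : ∀ r ∈ {r : ℝ | ∃ x y : X, N x = 1 ∧ N y = 1 ∧
      r = (N (x + τ • y) + N (x - τ • y)) / 2 - 1}, r ≤ η * τ := by
    rintro r ⟨x, y, hx, hy, rfl⟩
    set θ := τ / τ₀ with hθ
    have hθ0 : 0 ≤ θ := by positivity
    have hθ1 : θ ≤ 1 := by rw [hθ, div_le_one hτ0]; exact hd.le
    have eτ : τ = θ * τ₀ := by rw [hθ]; field_simp
    have c : ∀ z : X, N (x + θ • z) ≤ (1 - θ) + θ * N (x + z) := by
      intro z
      have : x + θ • z = (1 - θ) • x + θ • (x + z) := by module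
      rw [this]
      refine (map_add_le_add N _ _).trans ?_
      rw [map_smul_eq_mul, map_smul_eq_mul, hx, Real.norm_eq_abs, Real.norm_eq_abs,
        abs_of_nonneg hθ0, abs_of_nonneg (by linarith), mul_one]
    have c1 := c (τ₀ • y)
    have c2 := c (-(τ₀ • y))
    rw [smul_neg, ← sub_eq_add_neg, ← sub_eq_add_neg] at c2
    rw [smul_smul, ← eτ] at c1 c2
    have := mul_le_mul_of_nonneg_left (big x y hx hy) hθ0
    rw [eτ]
    rw [eτ] at c1 c2
    nlinarith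
  have up : smoothModulus N τ ≤ η * τ := Real.sSup_le bound (by positivity)
  have low : 0 ≤ smoothModulus N τ := by
    refine Real.sSup_nonneg ?_
    rintro r ⟨x, y, hx, hy, rfl⟩
    have h1 := map_add_le_add N (x + τ • y) (x - τ • y)
    have h2 : x + τ • y + (x - τ • y) = (2 : ℝ) • x := by module
    rw [h2, map_smul_eq_mul, hx] at h1
    norm_num at h1
    linarith
  rw [Real.dist_eq, sub_zero, abs_of_nonneg (by positivity), div_lt_iff₀ hτ']
  nlinarith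

theorem smooth_of_MP (h : ∀ ε : ℝ, 0 < ε → ∃ n : ℕ, 1 ≤ n ∧ MP X n (ε * n)) :
    HasEquivUniformlySmoothNorm X := by
  choose n hn hMP using fun m : ℕ => h ((1 / 4) ^ (m + 1)) (by positivity)
  choose f flo fhi fs fSm using fun m => exists_bellman (hn m) (hMP m)
  have npos : ∀ m, (0 : ℝ) < n m := fun m => by exact_mod_cast hn m
  obtain ⟨G, glo, ghi, gs, gSm⟩ := exists_infconv f _ _
    (fun m => (one_div_pos.2 (npos m)).le) flo fhi fs fSm
  obtain ⟨N, nlo, nhi, nSm⟩ := exists_convexify G glo ghi gs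
  refine ⟨N, ⟨1, 2, one_pos, two_pos, fun x => ⟨by simpa using nlo x, nhi x⟩⟩, ?_⟩
  refine smooth_of_Sm N nlo fun η hη => ?_
  obtain ⟨m, hm⟩ := exists_pow_lt_of_lt_one (show 0 < η ^ 2 by positivity)
    (show (1 / 2 : ℝ) < 1 by norm_num)
  refine ⟨_, _, one_div_pos.2 (npos m), ?_, ?_,
    nSm _ _ (one_div_pos.2 (npos m)).le (gSm m)⟩
  · have := npos m; positivity
  · refine le_trans (le_of_eq ?_) hm.le
    have := (npos m).ne'
    have e : (1 / 4 : ℝ) ^ (m + 1) = (1 / 2) ^ (m + 1) * (1 / 2) ^ (m + 1) := by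
      rw [← mul_pow]; norm_num
    have e2 : (2 : ℝ) ^ (m + 1) * (1 / 2) ^ (m + 1) = 1 := by rw [← mul_pow]; norm_num
    rw [e]
    calc _ = (2 ^ (m + 1) * (1 / 2) ^ (m + 1)) * (2 * (1 / 2) ^ (m + 1)) * (1 / (n m : ℝ) * n m) := by
          ring
      _ = _ := by rw [e2, one_div_mul_cancel this]; ring

end

end Vale.Agent.P125
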