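import Vale.Agent.P125.Ultra
import Vale.Agent.P125.Rank

namespace Vale.Agent.P125

open Filter Topology Finset

theorem seminorm_sum_le {V ι : Type*} [AddCommGroup V] [Module ℝ V] (ν : Seminorm ℝ V)
    (s : Finset ι) (f : ι → V) : ν (∑ i ∈ s, f i) ≤ ∑ i ∈ s, ν (f i) := by
  classical
  induction s using Finset.induction_on with
  | empty => simp
  | insert a s ha ih =>
    rw [Finset.sum_insert ha, Finset.sum_insert ha]
    exact (map_add_le_add ν _ _).trans (by linarith)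

theorem seminorm_lin_le {V : Type*} [AddCommGroup V] [Module ℝ V] (ν : Seminorm ℝ V)
    (T : (ℕ →₀ ℝ) →ₗ[ℝ] V) (w : ℕ → ℝ) (h : ∀ i, ν (T (Finsupp.single i 1)) ≤ w i) (a : ℕ →₀ ℝ) :
    ν (T a) ≤ ∑ i ∈ a.support, |a i| * w i := by
  conv_lhs => rw [← Finsupp.sum_single a, Finsupp.sum, map_sum]
  refine (seminorm_sum_le ν _ _).trans (Finset.sum_le_sum fun i _ => ?_)
  rw [← Finsupp.smul_single_one, map_smul, map_smul_eq_mul, Real.norm_eq_abs]
  exact mul_le_mul_of_nonneg_left (h i) (abs_nonneg _)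

/-- Difference of two consecutive averages. -/
noncomputable def avgv (m : ℕ) (n : ℕ → ℕ) : ℕ →₀ ℝ :=
  (1 / (m + 1 : ℝ)) • ∑ r ∈ range (m + 1),
    (Finsupp.single (n r) (1 : ℝ) - Finsupp.single (n (m + 1 + r)) 1)

/-- Blow-up map. -/
noncomputable def blow (m : ℕ) : (ℕ →₀ ℝ) →ₗ[ℝ] (ℕ →₀ ℝ) :=
  Finsupp.linearCombination ℝ fun i =>
    (1 / (m + 1 : ℝ)) • ∑ r ∈ range (m + 1), Finsupp.single ((m + 1) * i + r) (1 : ℝ)

theorem blow_single (m i : ℕ) : blow m (Finsupp.single i 1) =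
    (1 / (m + 1 : ℝ)) • ∑ r ∈ range (m + 1), Finsupp.single ((m + 1) * i + r) (1 : ℝ) := by
  simp [blow]

theorem avg_le {V : Type*} [AddCommGroup V] [Module ℝ V] (ν : Seminorm ℝ V) (m : ℕ) (g : ℕ → V)
    (B : ℝ) (h : ∀ r, ν (g r) ≤ B) : ν ((1 / (m + 1 : ℝ)) • ∑ r ∈ range (m + 1), g r) ≤ B := by
  have hm : (0 : ℝ) < m + 1 := by positivity
  rw [map_smul_eq_mul, Real.norm_eq_abs, abs_of_pos (by positivity), one_div, ← div_eq_inv_mul,
    div_le_iff₀ hm]
  refine (seminorm_sum_le ν _ _).trans ?_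
  calc _ ≤ ∑ _r ∈ range (m + 1), B := Finset.sum_le_sum fun r _ => h r
    _ = _ := by simp [mul_comm]

theorem exists_esa {X : Type*} [NormedAddCommGroup X] [NormedSpace ℝ X] {p C : ℝ} (hp : 0 ≤ p)
    (hJ : ∀ L, James X L) (hMT : MT (fun x : X => ‖x‖) p C) :
    ∃ ν : Seminorm ℝ (ℕ →₀ ℝ), MT ν p C ∧
      (∀ ψ : ℕ → ℕ, Monotone ψ → ∀ a, ν (Finsupp.mapDomain ψ a) ≤ ν a) ∧
      1 / 5 ≤ ν (Finsupp.single 0 1 - Finsupp.single 1 1) := by
  choose y hy hg using hJ
  -- first limit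
  obtain ⟨ν₀, t₀, m₀⟩ := exists_limit_seminorm (hyperfilter ℕ)
    (fun L => Finsupp.linearCombination ℝ (y L)) (normSeminorm ℝ X)
    (fun v => ⟨_, fun L => seminorm_lin_le _ _ (fun _ => 1) (fun i => by simpa using hy L i) v⟩)
    hp hMT
  have b₀ : ∀ i, ν₀ (Finsupp.single i 1) ≤ 1 := fun i =>
    le_of_tendsto' (t₀ _) fun L => by simpa using hy L i
  have j₀ : ∀ (m : ℕ) (n : ℕ → ℕ), (∀ i j, i < j → j < 2 * m + 3 → n i < n j) →
      1 / 5 ≤ ν₀ (avgv m n) := by
    intro m n hn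
    refine ge_of_tendsto (t₀ _) ?_
    have h1 : {L : ℕ | n (2 * m + 2) ≤ L} ∈ hyperfilter ℕ :=
      Nat.hyperfilter_le_atTop (mem_atTop _)
    refine Filter.mem_of_superset h1 fun L hL => ?_
    have hL' : n (2 * m + 2) ≤ L := hL
    obtain ⟨g, g1, s, g2, g3⟩ := hg L (n (m + 1))
      ((hn (m + 1) (2 * m + 2) (by omega) (by omega)).trans_le hL')
    have hm : (0 : ℝ) < m + 1 := by positivity
    have h2 : g (Finsupp.linearCombination ℝ (y L) (avgv m n)) ≤ -(1 / 5) := by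
      simp only [avgv, map_smul, map_sum, map_sub, Finsupp.linearCombination_single, one_smul,
        smul_eq_mul]
      rw [one_div (m + 1 : ℝ), ← div_eq_inv_mul, div_le_iff₀ hm]
      calc _ ≤ ∑ _r ∈ range (m + 1), -(1 / 5 : ℝ) := by
            refine Finset.sum_le_sum fun r hr => ?_
            have hr' := Finset.mem_range.1 hr
            have a1 := g2 (n r) (hn r (m + 1) hr' (by omega))
            have a2 := g3 (n (m + 1 + r)) (by
              rcases Nat.eq_zero_or_pos r with rfl | h0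
              · exact le_rfl
              · exact (hn (m + 1) (m + 1 + r) (by omega) (by omega)).le)
              ((hn (m + 1 + r) (2 * m + 2) (by omega) (by omega)).trans_le hL')
            linarith
        _ = _ := by simp [mul_comm]
    have h3 := g.le_of_opNorm_le g1 (Finsupp.linearCombination ℝ (y L) (avgv m n))
    rw [one_mul, Real.norm_eq_abs] at h3
    have := neg_le_of_abs_le h3
    simp only [Set.mem_setOf_eq, coe_normSeminorm]
    linarith
  -- second limit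
  have hb₀ : ∀ (n : ℕ → ℕ) (i : ℕ), ν₀ (Finsupp.lmapDomain ℝ ℝ n (Finsupp.single i 1)) ≤ 1 :=
    fun n i => by simpa using b₀ (n i)
  obtain ⟨ν₁, t₁, m₁⟩ := exists_limit_seminorm VV
    (fun n : ℕ → ℕ => Finsupp.lmapDomain ℝ ℝ n) ν₀
    (fun v => ⟨_, fun n => seminorm_lin_le _ _ (fun _ => 1) (hb₀ n) v⟩) hp m₀
  have b₁ : ∀ i, ν₁ (Finsupp.single i 1) ≤ 1 := fun i => le_of_tendsto' (t₁ _) fun n => hb₀ n i
  have j₁ : ∀ m : ℕ, 1 / 5 ≤ ν₁ (avgv m id) := by
    intro m
    refine ge_of_tendsto (t₁ _) (Filter.mem_of_superset (VV_mono (2 * m + 3)) fun n hn => ?_)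
    have : Finsupp.lmapDomain ℝ ℝ n (avgv m id) = avgv m n := by
      simp only [avgv, map_smul, map_sum, map_sub, Finsupp.lmapDomain_apply,
        Finsupp.mapDomain_single, id]
    simp only [Set.mem_setOf_eq, this]
    exact j₀ m n hn
  have is₁ : ∀ φ : ℕ → ℕ, StrictMono φ → ∀ a, ν₁ (Finsupp.mapDomain φ a) = ν₁ a := by
    intro φ hφ a
    obtain ⟨k, hk⟩ : ∃ k, ∀ i ∈ a.support, i < k :=
      ⟨a.support.sup id + 1, fun i hi => Nat.lt_succ_of_le (Finset.le_sup (f := id) hi)⟩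
    have h1 := VV_tendsto (k := k) hφ (Ψ := fun n => ν₀ (Finsupp.lmapDomain ℝ ℝ n a))
      (fun n n' h => by
        simp only [Finsupp.lmapDomain_apply]
        rw [Finsupp.mapDomain_congr fun i hi => h i (hk i hi)]) (t₁ a)
    refine tendsto_nhds_unique (t₁ _) ?_
    simpa only [Finsupp.lmapDomain_apply, Finsupp.mapDomain_comp] using h1
  -- third limit
  have hb₁ : ∀ m i : ℕ, ν₁ (blow m (Finsupp.single i 1)) ≤ 1 := fun m i => by
    rw [blow_single]; exact avg_le _ _ _ _ fun r => b₁ _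
  obtain ⟨ν₂, t₂, m₂⟩ := exists_limit_seminorm (hyperfilter ℕ) blow ν₁
    (fun v => ⟨_, fun m => seminorm_lin_le _ _ (fun _ => 1) (hb₁ m) v⟩) hp m₁
  have key : ∀ ψ : ℕ → ℕ, Monotone ψ → ∀ s, ν₂ (Finsupp.mapDomain ψ s) ≤ ν₁ s := by
    intro ψ hψ s
    have h1 : ∀ M : ℕ, ν₁ (blow M (Finsupp.mapDomain ψ s)) ≤
        ν₁ s + (∑ i ∈ s.support, |s i| * (2 * i)) * (1 / (M + 1 : ℝ)) := by
      intro M
      set B : (ℕ →₀ ℝ) →ₗ[ℝ] (ℕ →₀ ℝ) := (1 / (M + 1 : ℝ)) • ∑ r ∈ range (M + 1),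
        Finsupp.lmapDomain ℝ ℝ (fun i => (M + 1) * ψ i + (i + r)) with hB
      set A : (ℕ →₀ ℝ) →ₗ[ℝ] (ℕ →₀ ℝ) := blow M ∘ₗ Finsupp.lmapDomain ℝ ℝ ψ with hA
      have h2 : ν₁ (B s) ≤ ν₁ s := by
        simp only [hB, LinearMap.smul_apply, LinearMap.sum_apply, Finsupp.lmapDomain_apply]
        refine avg_le _ _ _ _ fun r => le_of_eq (is₁ _ (fun i j hij => ?_) s)
        have := Nat.mul_le_mul_left (M + 1) (hψ hij.le)
        omega
      have h3 : ∀ i, ν₁ ((A - B) (Finsupp.single i 1)) ≤ 2 * i * (1 / (M + 1 : ℝ)) := by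
        intro i
        set g : ℕ → ℕ →₀ ℝ := fun r => Finsupp.single ((M + 1) * ψ i + r) 1 with hg
        have e1 : (A - B) (Finsupp.single i 1) = (1 / (M + 1 : ℝ)) •
            (∑ r ∈ range (M + 1), g r - ∑ r ∈ range (M + 1), g (i + r)) := by
          simp only [hA, hB, hg, LinearMap.sub_apply, LinearMap.comp_apply, LinearMap.smul_apply,
            LinearMap.sum_apply, Finsupp.lmapDomain_apply, Finsupp.mapDomain_single, blow_single,
            smul_sub]
        have e2 : ∑ r ∈ range (M + 1), g r - ∑ r ∈ range (M + 1), g (i + r) =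
            ∑ r ∈ range i, (g r - g (M + 1 + r)) := by
          have a1 := Finset.sum_range_add g (M + 1) i
          have a2 := Finset.sum_range_add g i (M + 1)
          rw [add_comm i, a1] at a2
          rw [Finset.sum_sub_distrib, sub_eq_sub_iff_add_eq_add, a2]
        rw [e1, e2, map_smul_eq_mul, Real.norm_eq_abs, abs_of_pos (by positivity), mul_comm]
        refine mul_le_mul_of_nonneg_right ((seminorm_sum_le _ _ _).trans ?_) (by positivity)
        have hg1 : ∀ r, ν₁ (g r) ≤ 1 := fun r => b₁ _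
        calc _ ≤ ∑ _r ∈ range i, (2 : ℝ) := Finset.sum_le_sum fun r _ =>
              (map_sub_le_add ν₁ _ _).trans (by linarith [hg1 r, hg1 (M + 1 + r)])
          _ = _ := by simp [mul_comm]
      have h4 := seminorm_lin_le ν₁ (A - B) _ h3 s
      have h5 : blow M (Finsupp.mapDomain ψ s) = B s + (A - B) s := by
        simp [hA]
      rw [h5, Finset.sum_mul]
      refine (map_add_le_add ν₁ _ _).trans (add_le_add h2 (h4.trans (le_of_eq ?_)))
      exact Finset.sum_congr rfl fun i _ => by ring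
    have h6 : Tendsto (fun M : ℕ => ν₁ s + (∑ i ∈ s.support, |s i| * (2 * i)) *
        (1 / (M + 1 : ℝ))) (hyperfilter ℕ) (𝓝 (ν₁ s + (∑ i ∈ s.support, |s i| * (2 * i)) * 0)) :=
      ((tendsto_one_div_add_atTop_nhds_zero_nat.const_mul _).const_add _).mono_left
        Nat.hyperfilter_le_atTop
    rw [mul_zero, add_zero] at h6
    exact le_of_tendsto_of_tendsto' (t₂ _) h6 h1
  refine ⟨ν₂, m₂, fun ψ hψ a => ?_, ?_⟩
  · refine ge_of_tendsto' (t₂ a) fun m => ?_
    have h1 := key (fun i => ψ (i / (m + 1))) (fun i j hij => hψ (Nat.div_le_div_right hij))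
      (blow m a)
    have h2 : Finsupp.lmapDomain ℝ ℝ (fun i => ψ (i / (m + 1))) ∘ₗ blow m =
        Finsupp.lmapDomain ℝ ℝ ψ := by
      refine Finsupp.lhom_ext' fun i => LinearMap.ext_ring ?_
      simp only [LinearMap.comp_apply, Finsupp.lsingle_apply, blow_single, map_smul, map_sum,
        Finsupp.lmapDomain_apply, Finsupp.mapDomain_single]
      rw [Finset.sum_congr rfl (g := fun _ => Finsupp.single (ψ i) (1 : ℝ)) fun r hr => by
        rw [Nat.mul_add_div (Nat.succ_pos m), Nat.div_eq_of_lt (Finset.mem_range.1 hr), add_zero]]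
      rw [Finset.sum_const, Finset.card_range, ← Nat.cast_smul_eq_nsmul ℝ, smul_smul]
      have : (m + 1 : ℝ) ≠ 0 := by positivity
      rw [Nat.cast_succ, one_div_mul_cancel this, one_smul]
    have h3 := LinearMap.congr_fun h2 a
    simp only [LinearMap.comp_apply, Finsupp.lmapDomain_apply] at h3
    rwa [h3] at h1
  · refine ge_of_tendsto' (t₂ _) fun m => ?_
    have : blow m (Finsupp.single 0 1 - Finsupp.single 1 1) = avgv m id := by
      simp only [map_sub, blow_single, avgv, Finset.sum_sub_distrib, smul_sub, id, mul_zero,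
        zero_add, mul_one]
    rw [this]
    exact j₁ m

end Vale.Agent.P125
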