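import Mathlib

namespace Vale.Agent.P125

open Filter Topology

/-- Prepending a value to a sequence. -/
def consN (a : ℕ) (n : ℕ → ℕ) : ℕ → ℕ
  | 0 => a
  | i + 1 => n i

/-- Iterated products of the hyperfilter. -/
noncomputable def VU : ℕ → Ultrafilter (ℕ → ℕ)
  | 0 => pure (fun _ => 0)
  | k + 1 => (hyperfilter ℕ).bind (fun a => (VU k).map (consN a))

theorem ultra_mem_bind {α β : Type} (f : Ultrafilter α) (m : α → Ultrafilter β) (s : Set β) :
    s ∈ f.bind m ↔ {a | s ∈ m a} ∈ f := Filter.mem_bind'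

theorem mem_VU_succ (k : ℕ) (A : Set (ℕ → ℕ)) :
    A ∈ VU (k + 1) ↔ {a | consN a ⁻¹' A ∈ VU k} ∈ hyperfilter ℕ := by
  rw [VU, ultra_mem_bind]
  rfl

/-- A set depending only on the first `k` coordinates. -/
def Cyl (k : ℕ) (A : Set (ℕ → ℕ)) : Prop :=
  ∀ n n' : ℕ → ℕ, (∀ i < k, n i = n' i) → n ∈ A → n' ∈ A

theorem ultra_const {α : Type} (f : Ultrafilter α) (P : Prop) : {_a : α | P} ∈ f ↔ P := by
  by_cases h : P
  · simp only [h, Set.setOf_true, iff_true]
    exact Filter.univ_mem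
  · simp [h]

theorem VU_proj (N : ℕ) : ∀ (k : ℕ) (φ : ℕ → ℕ) (A : Set (ℕ → ℕ)),
    (∀ i j, i < j → j < k → φ i < φ j) → (∀ i < k, φ i < N) → Cyl k A →
    ((fun n => n ∘ φ) ⁻¹' A ∈ VU N ↔ A ∈ VU k) := by
  have zero : ∀ (N : ℕ) (φ : ℕ → ℕ) (A : Set (ℕ → ℕ)), Cyl 0 A →
      ((fun n => n ∘ φ) ⁻¹' A ∈ VU N ↔ A ∈ VU 0) := by
    intro N φ A hA
    rcases A.eq_empty_or_nonempty with rfl | ⟨n, hn⟩
    · simp
    · have : A = Set.univ := Set.eq_univ_of_forall fun n' => hA n n' (fun i hi => by omega) hn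
      subst this
      exact iff_of_true Filter.univ_mem Filter.univ_mem
  induction N with
  | zero =>
    intro k φ A _ h2 hA
    rcases k with _ | k
    · exact zero 0 φ A hA
    · exact absurd (h2 0 (Nat.succ_pos k)) (Nat.not_lt_zero _)
  | succ N ih =>
    intro k φ A h1 h2 hA
    rcases k with _ | k
    · exact zero _ φ A hA
    rw [mem_VU_succ]
    by_cases h0 : φ 0 = 0
    · rw [mem_VU_succ]
      have : ∀ a, consN a ⁻¹' ((fun n => n ∘ φ) ⁻¹' A) ∈ VU N ↔ consN a ⁻¹' A ∈ VU k := by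
        intro a
        have hc : Cyl k (consN a ⁻¹' A) := by
          intro n n' h hn
          refine hA _ _ ?_ hn
          rintro (_ | i) hi
          · rfl
          · exact h i (by omega)
        have hpos : ∀ i < k, 0 < φ (i + 1) := fun i hi =>
          lt_of_le_of_lt (Nat.zero_le _) (h1 0 (i + 1) (by omega) (by omega))
        rw [← ih k (fun i => φ (i + 1) - 1) _ (fun i j hij hj => by
            have := h1 (i + 1) (j + 1) (by omega) (by omega)
            have := hpos i (by omega)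
            omega) (fun i hi => by
            have := h2 (i + 1) (by omega)
            have := hpos i hi
            omega) hc]
        have key : ∀ n : ℕ → ℕ, ∀ i < k + 1,
            (consN a n ∘ φ) i = consN a (n ∘ fun i => φ (i + 1) - 1) i := by
          rintro n (_ | i) hi
          · simp [h0, consN]
          · obtain ⟨m, hm⟩ := Nat.exists_eq_succ_of_ne_zero (hpos i (by omega)).ne'
            simp [hm, consN]
        have : consN a ⁻¹' ((fun n => n ∘ φ) ⁻¹' A) =
            (fun n => n ∘ fun i => φ (i + 1) - 1) ⁻¹' (consN a ⁻¹' A) := by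
          ext n
          exact ⟨fun h => hA _ _ (key n) h, fun h => hA _ _ (fun i hi => (key n i hi).symm) h⟩
        rw [this]
      simp only [this]
    · have hpos : ∀ i < k + 1, 0 < φ i := by
        rintro (_ | i) hi
        · omega
        · exact lt_of_le_of_lt (Nat.zero_le _) (h1 0 (i + 1) (by omega) hi)
      have : ∀ a, consN a ⁻¹' ((fun n => n ∘ φ) ⁻¹' A) ∈ VU N ↔ A ∈ VU (k + 1) := by
        intro a
        rw [← ih (k + 1) (fun i => φ i - 1) _ (fun i j hij hj => by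
            have := h1 i j hij hj
            have := hpos i (by omega)
            omega) (fun i hi => by
            have := h2 i hi
            have := hpos i hi
            omega) hA]
        have key : ∀ n : ℕ → ℕ, ∀ i < k + 1,
            (consN a n ∘ φ) i = (n ∘ fun i => φ i - 1) i := by
          intro n i hi
          obtain ⟨m, hm⟩ := Nat.exists_eq_succ_of_ne_zero (hpos i hi).ne'
          simp [hm, consN]
        have : consN a ⁻¹' ((fun n => n ∘ φ) ⁻¹' A) =
            (fun n => n ∘ fun i => φ i - 1) ⁻¹' A := by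
          ext n
          exact ⟨fun h => hA _ _ (key n) h, fun h => hA _ _ (fun i hi => (key n i hi).symm) h⟩
        rw [this]
      simp only [this]
      exact ultra_const _ _

theorem VU_mono (N : ℕ) : ∀ c : ℕ,
    {n : ℕ → ℕ | (∀ i < N, c ≤ n i) ∧ ∀ i j, i < j → j < N → n i < n j} ∈ VU N := by
  induction N with
  | zero =>
    intro c
    have : {n : ℕ → ℕ | (∀ i < 0, c ≤ n i) ∧ ∀ i j, i < j → j < 0 → n i < n j} = Set.univ := by
      ext n; simp
    rw [this]; exact Filter.univ_mem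
  | succ N ih =>
    intro c
    rw [mem_VU_succ]
    have h1 : {a : ℕ | c ≤ a} ∈ hyperfilter ℕ := Nat.hyperfilter_le_atTop (mem_atTop c)
    refine Filter.mem_of_superset h1 fun a ha => ?_
    refine Filter.mem_of_superset (ih (a + 1)) fun n hn => ⟨?_, ?_⟩
    · rintro (_ | i) hi
      · exact ha
      · have := hn.1 i (by omega)
        have ha' : c ≤ a := ha
        simp only [consN]
        omega
    · rintro (_ | i) (_ | j) hij hj
      · omega
      · exact hn.1 j (by omega)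
      · omega
      · exact hn.2 i j (by omega) (by omega)

/-- The spreading ultrafilter on sequences. -/
noncomputable def VV : Ultrafilter (ℕ → ℕ) := (hyperfilter ℕ).bind VU

theorem VV_proj_aux (k : ℕ) (φ : ℕ → ℕ) (hφ : StrictMono φ) (A : Set (ℕ → ℕ)) (hA : Cyl k A) :
    (fun n => n ∘ φ) ⁻¹' A ∈ VV ↔ A ∈ VU k := by
  rw [VV, ultra_mem_bind]
  have h1 : {N : ℕ | φ k ≤ N} ∈ hyperfilter ℕ := Nat.hyperfilter_le_atTop (mem_atTop _)
  have h2 : ∀ N, φ k ≤ N → ((fun n => n ∘ φ) ⁻¹' A ∈ VU N ↔ A ∈ VU k) := fun N hN =>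
    VU_proj N k φ A (fun i j hij _ => hφ hij) (fun i hi => (hφ hi).trans_le hN) hA
  constructor
  · intro h
    obtain ⟨N, h3, h4⟩ := Ultrafilter.nonempty_of_mem (Filter.inter_mem h h1)
    exact (h2 N h4).1 h3
  · intro h
    exact Filter.mem_of_superset h1 fun N hN => (h2 N hN).2 h

theorem VV_proj (k : ℕ) (φ : ℕ → ℕ) (hφ : StrictMono φ) (A : Set (ℕ → ℕ)) (hA : Cyl k A) :
    (fun n => n ∘ φ) ⁻¹' A ∈ VV ↔ A ∈ VV := by
  rw [VV_proj_aux k φ hφ A hA]
  exact (VV_proj_aux k id strictMono_id A hA).symm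

theorem VV_mono (k : ℕ) : {n : ℕ → ℕ | ∀ i j, i < j → j < k → n i < n j} ∈ VV := by
  have hA : Cyl k {n : ℕ → ℕ | ∀ i j, i < j → j < k → n i < n j} := by
    intro n n' h hn i j hij hj
    rw [← h i (by omega), ← h j hj]
    exact hn i j hij hj
  exact (VV_proj_aux k id strictMono_id _ hA).2
    (Filter.mem_of_superset (VU_mono k 0) fun n hn => hn.2)

theorem VV_tendsto {k : ℕ} {φ : ℕ → ℕ} (hφ : StrictMono φ) {Ψ : (ℕ → ℕ) → ℝ}
    (hΨ : ∀ n n' : ℕ → ℕ, (∀ i < k, n i = n' i) → Ψ n = Ψ n') {c : ℝ}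
    (h : Tendsto Ψ VV (𝓝 c)) : Tendsto (fun n => Ψ (n ∘ φ)) VV (𝓝 c) := by
  intro s hs
  have hA : Cyl k (Ψ ⁻¹' s) := fun n n' e hn => by
    simp only [Set.mem_preimage] at hn ⊢
    rwa [← hΨ n n' e]
  exact (VV_proj k φ hφ _ hA).2 (h hs)

theorem ultra_exists_lim {I : Type} (W : Ultrafilter I) (g : I → ℝ) (B : ℝ)
    (hg : ∀ i, |g i| ≤ B) : ∃ c, Tendsto g W (𝓝 c) := by
  obtain ⟨c, -, hc⟩ := (isCompact_Icc (a := -B) (b := B)).ultrafilter_le_nhds (W.map g) (by
    rw [Filter.le_principal_iff, Ultrafilter.coe_map, Filter.mem_map]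
    exact Filter.mem_of_superset Filter.univ_mem fun i _ => abs_le.1 (hg i))
  exact ⟨c, hc⟩

/-- The Markov type inequality for a function `ν` on an additive group. -/
def MT {V : Type*} [AddCommGroup V] (ν : V → ℝ) (p C : ℝ) : Prop :=
  ∀ (S : Type) [Fintype S] [DecidableEq S] (P : Matrix S S ℝ) (π : S → ℝ),
    (∀ i j, 0 ≤ P i j) → (∀ i, ∑ j, P i j = 1) → (∀ i, 0 ≤ π i) → (∑ i, π i = 1) →
    (∀ i j, π i * P i j = π j * P j i) →
    ∀ (f : S → V) (t : ℕ), 1 ≤ t →
      ∑ i, ∑ j, π i * (P ^ t) i j * ν (f j - f i) ^ p ≤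
        C * t * ∑ i, ∑ j, π i * P i j * ν (f j - f i) ^ p

theorem exists_limit_seminorm {I : Type} (W : Ultrafilter I) {V E : Type*} [AddCommGroup V]
    [Module ℝ V] [AddCommGroup E] [Module ℝ E] (T : I → V →ₗ[ℝ] E) (ν : Seminorm ℝ E)
    (hb : ∀ v, ∃ B, ∀ i, ν (T i v) ≤ B) {p C : ℝ} (hp : 0 ≤ p) (hν : MT ν p C) :
    ∃ ν' : Seminorm ℝ V, (∀ v, Tendsto (fun i => ν (T i v)) W (𝓝 (ν' v))) ∧ MT ν' p C := by
  have : ∀ v, ∃ c, Tendsto (fun i => ν (T i v)) W (𝓝 c) := by
    intro v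
    obtain ⟨B, hB⟩ := hb v
    exact ultra_exists_lim W _ B fun i => by rw [abs_of_nonneg (apply_nonneg _ _)]; exact hB i
  choose L hL using this
  have hadd : ∀ x y, L (x + y) ≤ L x + L y := fun x y =>
    le_of_tendsto_of_tendsto' (hL (x + y)) ((hL x).add (hL y)) fun i => by
      rw [map_add]; exact map_add_le_add ν _ _
  have hsmul : ∀ (r : ℝ) x, L (r • x) = ‖r‖ * L x := fun r x =>
    tendsto_nhds_unique (hL (r • x)) (by
      simpa only [map_smul, map_smul_eq_mul] using (hL x).const_mul ‖r‖)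
  refine ⟨Seminorm.of L hadd hsmul, hL, ?_⟩
  intro S _ _ P π h1 h2 h3 h4 h5 f t ht
  refine le_of_tendsto_of_tendsto' (b := W)
    (f := fun i => ∑ a, ∑ b, π a * (P ^ t) a b * ν (T i (f b) - T i (f a)) ^ p)
    (g := fun i => C * t * ∑ a, ∑ b, π a * P a b * ν (T i (f b) - T i (f a)) ^ p) ?_ ?_
    fun i => hν S P π h1 h2 h3 h4 h5 (fun a => T i (f a)) t ht
  · refine tendsto_finset_sum _ fun a _ => tendsto_finset_sum _ fun b _ => ?_
    simp only [← map_sub]
    exact ((hL _).rpow_const (Or.inr hp)).const_mul _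
  · refine Tendsto.const_mul _ (tendsto_finset_sum _ fun a _ => tendsto_finset_sum _ fun b _ => ?_)
    simp only [← map_sub]
    exact ((hL _).rpow_const (Or.inr hp)).const_mul _

end Vale.Agent.P125
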